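import Vale.Agent.H96.FQH.Defs

/-!
# The one-body operators `dOp a b`
-/

open Matrix

namespace Vale.Agent.H96.FQH

set_option linter.unusedSectionVars false

variable {N : ℕ} {α : Type*} [Fintype α] [DecidableEq α]

theorem dOp_conjTranspose (a b : α) :
    (dOp a b : Matrix (Fin N → α) (Fin N → α) ℂ)ᴴ = dOp b a := by
  unfold dOp
  rw [Matrix.conjTranspose_sum]
  refine Finset.sum_congr rfl fun k _ => ?_
  rw [siteOp_conjTranspose, Matrix.conjTranspose_single, star_one]

theorem dOp_mulVec (a b : α) (Ψ : (Fin N → α) → ℂ) (σ : Fin N → α) :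
    (dOp a b *ᵥ Ψ) σ = ∑ k : Fin N, if σ k = a then Ψ (Function.update σ k b) else 0 := by
  unfold dOp
  rw [Matrix.sum_mulVec, Finset.sum_apply]
  refine Finset.sum_congr rfl fun k _ => ?_
  rw [siteOp_mulVec]
  by_cases h : σ k = a
  · rw [if_pos h, Finset.sum_eq_single b]
    · simp [Matrix.single_apply, h]
    · intro x _ hx
      simp [Matrix.single_apply, Ne.symm hx]
    · intro hb
      exact absurd (Finset.mem_univ b) hb
  · rw [if_neg h]
    refine Finset.sum_eq_zero fun x _ => ?_
    have h' : ¬ a = σ k := fun e => h e.symm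
    simp [Matrix.single_apply, h']

theorem update_comp_swap (σ : Fin N → α) (i j k : Fin N) (b : α) :
    Function.update (σ ∘ Equiv.swap i j) (Equiv.swap i j k) b =
      Function.update σ k b ∘ Equiv.swap i j := by
  funext x
  by_cases hx : x = Equiv.swap i j k
  · subst hx
    simp
  · have h2 : Equiv.swap i j x ≠ k := by
      intro e
      apply hx
      rw [← e, Equiv.swap_apply_self]
    simp [Function.update_of_ne hx, Function.update_of_ne h2]

theorem dOp_antisym (a b : α) {Ψ : (Fin N → α) → ℂ} (h : IsAntisym Ψ) :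
    IsAntisym (dOp a b *ᵥ Ψ) := by
  intro i j hij σ
  rw [dOp_mulVec, dOp_mulVec, ← Finset.sum_neg_distrib,
    ← Equiv.sum_comp (Equiv.swap i j)]
  refine Finset.sum_congr rfl fun k _ => ?_
  rw [update_comp_swap, Function.comp_apply, Equiv.swap_apply_self]
  by_cases hk : σ k = a
  · rw [if_pos hk, if_pos hk, h i j hij]
  · rw [if_neg hk, if_neg hk, neg_zero]

theorem antisym_injective {Ψ : (Fin N → α) → ℂ} (h : IsAntisym Ψ) {σ : Fin N → α}
    (hσ : Ψ σ ≠ 0) : Function.Injective σ := by
  intro i j hij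
  by_contra hne
  apply hσ
  have h1 := h i j hne σ
  have h2 : σ ∘ Equiv.swap i j = σ := by
    funext x
    rw [Function.comp_apply, Equiv.swap_apply_def]
    split_ifs with h3 h4
    · rw [h3, hij]
    · rw [h4, hij]
    · rfl
  rw [h2] at h1
  have h3 : (2 : ℂ) * Ψ σ = 0 := by linear_combination h1
  rcases mul_eq_zero.mp h3 with h4 | h4
  · norm_num at h4
  · exact h4

end Vale.Agent.H96.FQH
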