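import Vale.Agent.H96.Magnon

/-!
# Definitions for the spherical Laughlin (Haldane `V_1` pseudopotential) Hamiltonian

The one-particle space `U_Q` is `ℂ^(Q+1)` with the spin-`Q/2` matrices `spinZ Q`, `spinPlus Q`,
`spinMinus Q` (basis `k = 0..Q`, `S^3`-eigenvalue `Q/2 - k`). Vectors of `U_Q ⊗ U_Q` are functions
on `Fin 2 → Fin (Q+1)`, vectors of `U_Q^{⊗ N}` are functions on `Fin N → Fin (Q+1)`.
-/

open Matrix

namespace Vale.Agent.H96.FQH

/-- Index set of the pair space `U_Q ⊗ U_Q`. -/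
abbrev Pair (Q : ℕ) : Type := Fin 2 → Fin (Q + 1)

section highestWeight

variable {n : Type*} [Fintype n] [DecidableEq n]

/-- The vector `L^-^k w`. -/
noncomputable def hwVec (Lm : Matrix n n ℂ) (w : n → ℂ) (k : ℕ) : n → ℂ := (Lm ^ k) *ᵥ w

/-- The squared norm of `L^-^k w`. -/
noncomputable def hwNorm (Lm : Matrix n n ℂ) (w : n → ℂ) (k : ℕ) : ℝ :=
  ∑ σ, Complex.normSq (hwVec Lm w k σ)

/-- The sum of the rank-one orthogonal projections onto the vectors `L^-^k w`, `k < K`. -/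
noncomputable def hwProj (Lm : Matrix n n ℂ) (w : n → ℂ) (K : ℕ) : Matrix n n ℂ :=
  ∑ k ∈ Finset.range K,
    ((hwNorm Lm w k : ℝ) : ℂ)⁻¹ • Matrix.vecMulVec (hwVec Lm w k) (star (hwVec Lm w k))

/-- A highest-weight ladder: `L^- = (L^+)ᴴ`, `L^3` Hermitian, `[L^+, L^-] = 2 L^3`,
`[L^3, L^-] = -L^-`, and a nonzero vector `w` with `L^+ w = 0`, `L^3 w = (m/2) w`. -/
structure IsLadder (Lp Lm Lz : Matrix n n ℂ) (w : n → ℂ) (m : ℕ) : Prop where
  adj : Lmᴴ = Lp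
  herm : Lz.IsHermitian
  comm_pm : Lp * Lm - Lm * Lp = (2 : ℂ) • Lz
  comm_zm : Lz * Lm - Lm * Lz = -Lm
  top : Lp *ᵥ w = 0
  weight : Lz *ᵥ w = ((m : ℂ) / 2) • w
  ne : w ≠ 0

end highestWeight

section pair

variable (Q : ℕ)

/-- Total raising operator `L^+ = S^+ ⊗ 1 + 1 ⊗ S^+` on the pair space. -/
noncomputable def pairLp : Matrix (Pair Q) (Pair Q) ℂ :=
  siteOp 0 (spinPlus Q) + siteOp 1 (spinPlus Q)

/-- Total lowering operator `L^- = S^- ⊗ 1 + 1 ⊗ S^-` on the pair space. -/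
noncomputable def pairLm : Matrix (Pair Q) (Pair Q) ℂ :=
  siteOp 0 (spinMinus Q) + siteOp 1 (spinMinus Q)

/-- Total `L^3 = S^3 ⊗ 1 + 1 ⊗ S^3` on the pair space. -/
noncomputable def pairLz : Matrix (Pair Q) (Pair Q) ℂ :=
  siteOp 0 (spinZ Q) + siteOp 1 (spinZ Q)

/-- The Casimir operator `L^- L^+ + L^3 (L^3 + 1)` (total spin squared) of the pair. -/
noncomputable def pairCasimir : Matrix (Pair Q) (Pair Q) ℂ :=
  pairLm Q * pairLp Q + pairLz Q * pairLz Q + pairLz Q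

/-- The highest-weight vector `e_0 ⊗ e_1 - e_1 ⊗ e_0` of the component of total spin `Q - 1`. -/
def pairW0 : Pair Q → ℂ := fun σ =>
  if (σ 0 : ℕ) = 0 ∧ (σ 1 : ℕ) = 1 then 1 else if (σ 0 : ℕ) = 1 ∧ (σ 1 : ℕ) = 0 then -1 else 0

/-- The orthogonal projection of `U_Q ⊗ U_Q` onto its irreducible component of total spin
`Q - 1`: the span of the `2Q - 1` mutually orthogonal vectors `L^-^k (e_0 ⊗ e_1 - e_1 ⊗ e_0)`, `0 ≤ k ≤ 2Q - 2`. -/
noncomputable def pairProj : Matrix (Pair Q) (Pair Q) ℂ :=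
  hwProj (pairLm Q) (pairW0 Q) (2 * Q - 1)

end pair

section nbody

variable {N : ℕ} {α : Type*} [Fintype α] [DecidableEq α]

/-- The operator acting as the pair matrix `B` on the tensor factors `i`, `j` and as the identity
on the other factors. -/
def pairOp (i j : Fin N) (B : Matrix (Fin 2 → α) (Fin 2 → α) ℂ) :
    Matrix (Fin N → α) (Fin N → α) ℂ :=
  Matrix.of fun σ τ => if ∀ k, k ≠ i → k ≠ j → σ k = τ k then B ![σ i, σ j] ![τ i, τ j] else 0

/-- The operator exchanging the tensor factors `i` and `j`. -/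
def swapOp (i j : Fin N) : Matrix (Fin N → α) (Fin N → α) ℂ :=
  Matrix.of fun σ τ => if τ = σ ∘ Equiv.swap i j then 1 else 0

/-- Antisymmetric vectors: the fermionic space `⋀^N U`. -/
def IsAntisym (Ψ : (Fin N → α) → ℂ) : Prop :=
  ∀ i j : Fin N, i ≠ j → ∀ σ : Fin N → α, Ψ (σ ∘ Equiv.swap i j) = -Ψ σ

/-- The one-body operator `∑_k (E_ab)_k`, where `E_ab` is the matrix unit. -/
def dOp (a b : α) : Matrix (Fin N → α) (Fin N → α) ℂ :=
  ∑ k : Fin N, siteOp k (Matrix.single a b (1 : ℂ))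

end nbody

/-- The Hamiltonian `H_{N,Q} = ∑_{i<j} P^{(1)}_{ij}`. -/
noncomputable def hamL (N Q : ℕ) : Matrix (Fin N → Fin (Q + 1)) (Fin N → Fin (Q + 1)) ℂ :=
  ∑ i : Fin N, ∑ j : Fin N, if i < j then pairOp i j (pairProj Q) else 0

/-- The component of a vector in the sector of total weight `m`. -/
def wtProj {N Q : ℕ} (m : ℕ) (Ψ : (Fin N → Fin (Q + 1)) → ℂ) : (Fin N → Fin (Q + 1)) → ℂ :=
  fun σ => if ∑ i, (σ i : ℕ) = m then Ψ σ else 0

end Vale.Agent.H96.FQH
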