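import Vale.Agent.H96.FQH.Defs

/-!
# Lowest eigenvector of a Hermitian matrix on an invariant subspace
-/

open Matrix

namespace Vale.Agent.H96.FQH

theorem exists_ground {n : Type*} [Fintype n] [DecidableEq n] (T : Matrix n n ℂ)
    (hT : T.IsHermitian) (W : Submodule ℂ (n → ℂ)) (hW : ∀ v ∈ W, T *ᵥ v ∈ W)
    (hne : ∃ v ∈ W, v ≠ 0) :
    ∃ E : ℝ, ∃ v ∈ W, v ≠ 0 ∧ T *ᵥ v = (E : ℂ) • v ∧
      ∀ u ∈ W, E * ∑ σ, Complex.normSq (u σ) ≤ (star u ⬝ᵥ (T *ᵥ u)).re := by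
  classical
  set L : EuclideanSpace ℂ n →ₗ[ℂ] EuclideanSpace ℂ n := Matrix.toEuclideanLin T with hL
  have hsym : L.IsSymmetric := Matrix.isSymmetric_toEuclideanLin_iff.mpr hT
  let W' : Submodule ℂ (EuclideanSpace ℂ n) :=
    W.comap (WithLp.linearEquiv 2 ℂ (n → ℂ)).toLinearMap
  have hmem : ∀ x : EuclideanSpace ℂ n, x ∈ W' ↔ WithLp.ofLp x ∈ W := fun x => Iff.rfl
  have hLap : ∀ x : EuclideanSpace ℂ n, WithLp.ofLp (L x) = T *ᵥ WithLp.ofLp x := fun x => rfl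
  have hinv : ∀ x ∈ W', L x ∈ W' := by
    intro x hx
    rw [hmem] at hx ⊢
    rw [hLap]
    exact hW _ hx
  have hsym' := hsym.restrict_invariant hinv
  obtain ⟨v0, hv0W, hv0⟩ := hne
  have hv0' : WithLp.toLp 2 v0 ∈ W' := by rw [hmem]; exact hv0W
  have : Nontrivial W' := by
    refine ⟨⟨⟨WithLp.toLp 2 v0, hv0'⟩, 0, ?_⟩⟩
    intro h
    apply hv0
    have h2 := congrArg (fun x : W' => WithLp.ofLp (x : EuclideanSpace ℂ n)) h
    simpa using h2
  have hev := hsym'.hasEigenvalue_iInf_of_finiteDimensional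
  obtain ⟨x, hx⟩ := hev.exists_hasEigenvector
  have hbdd : BddBelow (Set.range fun y : { y : W' // y ≠ 0 } =>
      RCLike.re (inner ℂ (L.restrict hinv (y : W')) (y : W')) / ‖(y : W')‖ ^ 2) := by
    refine ⟨-‖hsym'.toSelfAdjoint.val‖, ?_⟩
    rintro _ ⟨y, rfl⟩
    have h1 := hsym'.toSelfAdjoint.val.rayleighQuotient_le_norm (y : W')
    have h2 := neg_abs_le (hsym'.toSelfAdjoint.val.rayleighQuotient (y : W'))
    have h3 : hsym'.toSelfAdjoint.val.rayleighQuotient (y : W')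
        = RCLike.re (inner ℂ (L.restrict hinv (y : W')) (y : W')) / ‖(y : W')‖ ^ 2 := rfl
    rw [h3] at h1 h2
    show _ ≤ RCLike.re (inner ℂ (L.restrict hinv (y : W')) (y : W')) / ‖(y : W')‖ ^ 2
    linarith
  refine ⟨⨅ y : { y : W' // y ≠ 0 },
      RCLike.re (inner ℂ (L.restrict hinv (y : W')) (y : W')) / ‖(y : W')‖ ^ 2,
    WithLp.ofLp (x : EuclideanSpace ℂ n), x.2, ?_, ?_, ?_⟩
  · intro h
    apply hx.2
    apply Subtype.ext
    have h3 : (x : EuclideanSpace ℂ n) = WithLp.toLp 2 (WithLp.ofLp (x : EuclideanSpace ℂ n)) := rfl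
    rw [h3, h]
    rfl
  · have h1 := hx.apply_eq_smul
    have h2 := congrArg (fun y : W' => WithLp.ofLp (y : EuclideanSpace ℂ n)) h1
    simpa [hLap] using h2
  · intro u hu
    have hu' : WithLp.toLp 2 u ∈ W' := by rw [hmem]; exact hu
    by_cases hu0 : u = 0
    · subst hu0
      simp
    · have hne' : (⟨WithLp.toLp 2 u, hu'⟩ : W') ≠ 0 := by
        intro h
        apply hu0
        have h2 := congrArg (fun x : W' => WithLp.ofLp (x : EuclideanSpace ℂ n)) h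
        simpa using h2
      have h1 := ciInf_le hbdd ⟨⟨WithLp.toLp 2 u, hu'⟩, hne'⟩
      have hpos : 0 < ‖(⟨WithLp.toLp 2 u, hu'⟩ : W')‖ ^ 2 := by
        have := norm_pos_iff.mpr hne'
        positivity
      have h4 := (le_div_iff₀ hpos).1 h1
      have h5 : ‖(⟨WithLp.toLp 2 u, hu'⟩ : W')‖ ^ 2 = ∑ σ, Complex.normSq (u σ) := by
        have h6 : ‖(⟨WithLp.toLp 2 u, hu'⟩ : W')‖ = ‖(WithLp.toLp 2 u : EuclideanSpace ℂ n)‖ := rfl
        rw [h6, EuclideanSpace.norm_sq_eq]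
        refine Finset.sum_congr rfl fun σ _ => ?_
        rw [Complex.normSq_eq_norm_sq]
      have h7 : RCLike.re (inner ℂ (L.restrict hinv (⟨WithLp.toLp 2 u, hu'⟩ : W'))
          (⟨WithLp.toLp 2 u, hu'⟩ : W')) = (star u ⬝ᵥ (T *ᵥ u)).re := by
        have h8 : inner ℂ (L.restrict hinv (⟨WithLp.toLp 2 u, hu'⟩ : W'))
          (⟨WithLp.toLp 2 u, hu'⟩ : W') = u ⬝ᵥ star (T *ᵥ u) := rfl
        rw [h8, Matrix.dotProduct_star, dotProduct_comm]
        simp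
      rw [h5, h7] at h4
      exact h4

end Vale.Agent.H96.FQH
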