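import Vale.Agent.H96.FQH.Defs

/-!
# The highest-weight ladder: weights, raising relations, norms, orthogonality
-/

open Matrix

namespace Vale.Agent.H96.FQH

set_option linter.unusedSectionVars false

variable {n : Type*} [Fintype n] [DecidableEq n]

theorem hwVec_zero (Lm : Matrix n n ℂ) (w : n → ℂ) : hwVec Lm w 0 = w := by
  simp [hwVec]

theorem hwVec_succ (Lm : Matrix n n ℂ) (w : n → ℂ) (k : ℕ) :
    hwVec Lm w (k + 1) = Lm *ᵥ hwVec Lm w k := by
  simp [hwVec, pow_succ', Matrix.mulVec_mulVec]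

theorem hwNorm_eq (Lm : Matrix n n ℂ) (w : n → ℂ) (k : ℕ) :
    ((hwNorm Lm w k : ℝ) : ℂ) = star (hwVec Lm w k) ⬝ᵥ hwVec Lm w k := by
  unfold hwNorm dotProduct
  push_cast
  refine Finset.sum_congr rfl fun σ _ => ?_
  rw [Pi.star_apply, Complex.normSq_eq_conj_mul_self]
  rfl

theorem hw_z {Lp Lm Lz : Matrix n n ℂ} {w : n → ℂ} {m : ℕ} (h : IsLadder Lp Lm Lz w m) (k : ℕ) :
    Lz *ᵥ hwVec Lm w k = ((m : ℂ) / 2 - (k : ℂ)) • hwVec Lm w k := by
  induction k with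
  | zero => rw [hwVec_zero, h.weight]; simp
  | succ k ih =>
    have e : Lz * Lm = Lm * Lz - Lm := by
      have := h.comm_zm
      rw [sub_eq_iff_eq_add] at this
      rw [this]; abel
    rw [hwVec_succ, Matrix.mulVec_mulVec, e, Matrix.sub_mulVec, ← Matrix.mulVec_mulVec, ih,
      Matrix.mulVec_smul]
    push_cast
    module

theorem hw_p {Lp Lm Lz : Matrix n n ℂ} {w : n → ℂ} {m : ℕ} (h : IsLadder Lp Lm Lz w m) (k : ℕ) :
    Lp *ᵥ hwVec Lm w (k + 1) = (((k : ℂ) + 1) * ((m : ℂ) - (k : ℂ))) • hwVec Lm w k := by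
  have e : Lp * Lm = Lm * Lp + (2 : ℂ) • Lz := by
    have := h.comm_pm
    rw [sub_eq_iff_eq_add] at this
    rw [this]; abel
  induction k with
  | zero =>
    rw [hwVec_succ, Matrix.mulVec_mulVec, e, Matrix.add_mulVec, ← Matrix.mulVec_mulVec,
      hwVec_zero, h.top, Matrix.mulVec_zero, zero_add, Matrix.smul_mulVec, h.weight, smul_smul]
    congr 1
    push_cast
    ring
  | succ k ih =>
    rw [hwVec_succ, Matrix.mulVec_mulVec, e, Matrix.add_mulVec, ← Matrix.mulVec_mulVec, ih,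
      Matrix.mulVec_smul, ← hwVec_succ, Matrix.smul_mulVec, hw_z h, smul_smul, ← add_smul]
    congr 1
    push_cast
    ring

theorem hw_orth {Lp Lm Lz : Matrix n n ℂ} {w : n → ℂ} {m : ℕ} (h : IsLadder Lp Lm Lz w m)
    {k l : ℕ} (hkl : k ≠ l) : star (hwVec Lm w k) ⬝ᵥ hwVec Lm w l = 0 := by
  have h1 : star (hwVec Lm w k) ⬝ᵥ (Lz *ᵥ hwVec Lm w l) =
      star (Lz *ᵥ hwVec Lm w k) ⬝ᵥ hwVec Lm w l := by
    rw [Matrix.star_mulVec, h.herm.eq, Matrix.dotProduct_mulVec]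
  rw [hw_z h, hw_z h, dotProduct_smul, star_smul, smul_dotProduct] at h1
  have h2 : star ((m : ℂ) / 2 - (k : ℂ)) = (m : ℂ) / 2 - (k : ℂ) := by
    simp
  rw [h2, smul_eq_mul, smul_eq_mul] at h1
  have h3 : ((l : ℂ) - (k : ℂ)) * (star (hwVec Lm w k) ⬝ᵥ hwVec Lm w l) = 0 := by
    linear_combination -h1
  rcases mul_eq_zero.mp h3 with h4 | h4
  · exfalso
    apply hkl
    have : (l : ℂ) = (k : ℂ) := by linear_combination h4
    exact_mod_cast this.symm
  · exact h4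

theorem hw_norm_succ {Lp Lm Lz : Matrix n n ℂ} {w : n → ℂ} {m : ℕ} (h : IsLadder Lp Lm Lz w m)
    (k : ℕ) : hwNorm Lm w (k + 1) = ((k : ℝ) + 1) * ((m : ℝ) - (k : ℝ)) * hwNorm Lm w k := by
  have h1 : star (hwVec Lm w (k + 1)) ⬝ᵥ hwVec Lm w (k + 1) =
      star (hwVec Lm w k) ⬝ᵥ (Lp *ᵥ hwVec Lm w (k + 1)) := by
    have e : star (hwVec Lm w (k + 1)) = star (hwVec Lm w k) ᵥ* Lp := by
      rw [hwVec_succ, Matrix.star_mulVec, h.adj]
    rw [e, Matrix.dotProduct_mulVec]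
  rw [hw_p h, dotProduct_smul, ← hwNorm_eq, ← hwNorm_eq, smul_eq_mul] at h1
  have h2 : ((hwNorm Lm w (k + 1) : ℝ) : ℂ) =
      ((((k : ℝ) + 1) * ((m : ℝ) - (k : ℝ)) * hwNorm Lm w k : ℝ) : ℂ) := by
    rw [h1]; push_cast; ring
  exact_mod_cast h2

theorem hw_norm_pos {Lp Lm Lz : Matrix n n ℂ} {w : n → ℂ} {m : ℕ} (h : IsLadder Lp Lm Lz w m)
    {k : ℕ} (hk : k ≤ m) : 0 < hwNorm Lm w k := by
  induction k with
  | zero =>
    unfold hwNorm
    rw [hwVec_zero]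
    have hne : ∃ σ, w σ ≠ 0 := by
      by_contra hcon
      apply h.ne
      funext σ
      by_contra h2
      exact hcon ⟨σ, h2⟩
    obtain ⟨σ, hσ⟩ := hne
    have h1 : 0 < Complex.normSq (w σ) := Complex.normSq_pos.mpr hσ
    have h2 : Complex.normSq (w σ) ≤ ∑ τ, Complex.normSq (w τ) :=
      Finset.single_le_sum (f := fun τ => Complex.normSq (w τ))
        (fun τ _ => Complex.normSq_nonneg _) (Finset.mem_univ σ)
    linarith
  | succ k ih =>
    rw [hw_norm_succ h]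
    have h1 := ih (by omega)
    have h2 : (0 : ℝ) < (m : ℝ) - (k : ℝ) := by
      have : (k : ℝ) + 1 ≤ (m : ℝ) := by exact_mod_cast hk
      linarith
    positivity

theorem hw_top {Lp Lm Lz : Matrix n n ℂ} {w : n → ℂ} {m : ℕ} (h : IsLadder Lp Lm Lz w m) :
    hwVec Lm w (m + 1) = 0 := by
  have h1 : hwNorm Lm w (m + 1) = 0 := by
    rw [hw_norm_succ h]; ring
  unfold hwNorm at h1
  have h2 := (Finset.sum_eq_zero_iff_of_nonneg (s := (Finset.univ : Finset n))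
    (f := fun σ => Complex.normSq (hwVec Lm w (m + 1) σ))
    (fun σ _ => Complex.normSq_nonneg _)).mp h1
  funext σ
  exact Complex.normSq_eq_zero.mp (h2 σ (Finset.mem_univ σ))

end Vale.Agent.H96.FQH
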