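import Vale.Agent.H96.FQH.HW1

/-!
# The ladder projection: Hermitian, idempotent, trace, eigen-relation
-/

open Matrix

namespace Vale.Agent.H96.FQH

set_option linter.unusedSectionVars false

variable {n : Type*} [Fintype n] [DecidableEq n]

theorem hwProj_isHermitian (Lm : Matrix n n ℂ) (w : n → ℂ) (K : ℕ) :
    (hwProj Lm w K).IsHermitian := by
  unfold hwProj Matrix.IsHermitian
  rw [Matrix.conjTranspose_sum]
  refine Finset.sum_congr rfl fun k _ => ?_
  rw [Matrix.conjTranspose_smul, Matrix.conjTranspose_vecMulVec, star_star]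
  congr 1
  rw [star_inv₀]
  congr 1
  exact Complex.conj_ofReal _

/-- `F` commutes with every power of `Lm`. -/
theorem hwAux_comm_pow {F Lm : Matrix n n ℂ} (hF : F * Lm = Lm * F) (k : ℕ) :
    F * Lm ^ k = Lm ^ k * F := by
  induction k with
  | zero => simp
  | succ k ih =>
    rw [pow_succ, ← Matrix.mul_assoc, ih, Matrix.mul_assoc, hF, Matrix.mul_assoc]

theorem hwAux_eigen_vec {F Lm : Matrix n n ℂ} {w : n → ℂ} {c : ℂ} (hF : F * Lm = Lm * F)
    (hw : F *ᵥ w = c • w) (k : ℕ) : F *ᵥ hwVec Lm w k = c • hwVec Lm w k := by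
  unfold hwVec
  rw [Matrix.mulVec_mulVec, hwAux_comm_pow hF k, ← Matrix.mulVec_mulVec, hw, Matrix.mulVec_smul]

theorem hwProj_eigen {F Lm : Matrix n n ℂ} {w : n → ℂ} {c : ℂ} (hF : F * Lm = Lm * F)
    (hw : F *ᵥ w = c • w) (K : ℕ) : F * hwProj Lm w K = c • hwProj Lm w K := by
  unfold hwProj
  rw [Finset.mul_sum, Finset.smul_sum]
  refine Finset.sum_congr rfl fun k _ => ?_
  rw [Matrix.mul_smul, Matrix.mul_vecMulVec, hwAux_eigen_vec hF hw k, Matrix.smul_vecMulVec,
    smul_comm]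

theorem hwProj_mul_self {Lp Lm Lz : Matrix n n ℂ} {w : n → ℂ} {m : ℕ}
    (h : IsLadder Lp Lm Lz w m) :
    hwProj Lm w (m + 1) * hwProj Lm w (m + 1) = hwProj Lm w (m + 1) := by
  unfold hwProj
  rw [Finset.sum_mul]
  refine Finset.sum_congr rfl fun k hk => ?_
  rw [Finset.mul_sum, Finset.sum_eq_single k]
  · rw [Matrix.smul_mul, Matrix.mul_smul, Matrix.vecMulVec_mul_vecMulVec, ← hwNorm_eq,
      smul_smul, Matrix.vecMulVec_smul, smul_smul]
    congr 1
    have hpos : 0 < hwNorm Lm w k := hw_norm_pos h (by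
      have := Finset.mem_range.mp hk
      omega)
    have hne : ((hwNorm Lm w k : ℝ) : ℂ) ≠ 0 := by
      exact_mod_cast hpos.ne'
    field_simp
  · intro l _ hlk
    rw [Matrix.smul_mul, Matrix.mul_smul, Matrix.vecMulVec_mul_vecMulVec,
      hw_orth h (Ne.symm hlk)]
    simp
  · intro hk'
    exact absurd hk hk'

theorem hwProj_trace {Lp Lm Lz : Matrix n n ℂ} {w : n → ℂ} {m : ℕ}
    (h : IsLadder Lp Lm Lz w m) : Matrix.trace (hwProj Lm w (m + 1)) = (m : ℂ) + 1 := by
  unfold hwProj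
  rw [Matrix.trace_sum]
  have : ∀ k ∈ Finset.range (m + 1),
      Matrix.trace (((hwNorm Lm w k : ℝ) : ℂ)⁻¹ •
        Matrix.vecMulVec (hwVec Lm w k) (star (hwVec Lm w k))) = 1 := by
    intro k hk
    have hpos : 0 < hwNorm Lm w k := hw_norm_pos h (by
      have := Finset.mem_range.mp hk
      omega)
    have hne : ((hwNorm Lm w k : ℝ) : ℂ) ≠ 0 := by
      exact_mod_cast hpos.ne'
    rw [Matrix.trace_smul, Matrix.trace_vecMulVec, dotProduct_comm, ← hwNorm_eq, smul_eq_mul,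
      inv_mul_cancel₀ hne]
  rw [Finset.sum_congr rfl this]
  simp

end Vale.Agent.H96.FQH
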