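import Vale.Agent.H96.FQH.HW2a

/-!
# The ladder projection commutes with the ladder operators; Casimir eigenvalue
-/

open Matrix

namespace Vale.Agent.H96.FQH

set_option linter.unusedSectionVars false

variable {n : Type*} [Fintype n] [DecidableEq n]

theorem hw2b_mul_ket (A : Matrix n n ℂ) (v u : n → ℂ) :
    A * Matrix.vecMulVec v (star u) = Matrix.vecMulVec (A *ᵥ v) (star u) :=
  Matrix.mul_vecMulVec A v (star u)

theorem hw2b_ket_mul (A : Matrix n n ℂ) (v u : n → ℂ) :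
    Matrix.vecMulVec v (star u) * A = Matrix.vecMulVec v (star (Aᴴ *ᵥ u)) := by
  rw [Matrix.vecMulVec_mul, Matrix.star_mulVec, Matrix.conjTranspose_conjTranspose]

theorem hw2b_mul_proj (A Lm : Matrix n n ℂ) (w : n → ℂ) (K : ℕ) :
    A * hwProj Lm w K = ∑ k ∈ Finset.range K, ((hwNorm Lm w k : ℝ) : ℂ)⁻¹ •
      Matrix.vecMulVec (A *ᵥ hwVec Lm w k) (star (hwVec Lm w k)) := by
  unfold hwProj
  rw [Finset.mul_sum]
  refine Finset.sum_congr rfl (fun k _ => ?_)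
  rw [Matrix.mul_smul, hw2b_mul_ket]

theorem hw2b_proj_mul (A Lm : Matrix n n ℂ) (w : n → ℂ) (K : ℕ) :
    hwProj Lm w K * A = ∑ k ∈ Finset.range K, ((hwNorm Lm w k : ℝ) : ℂ)⁻¹ •
      Matrix.vecMulVec (hwVec Lm w k) (star (Aᴴ *ᵥ hwVec Lm w k)) := by
  unfold hwProj
  rw [Finset.sum_mul]
  refine Finset.sum_congr rfl (fun k _ => ?_)
  rw [Matrix.smul_mul, hw2b_ket_mul]

theorem hwProj_comm_z {Lp Lm Lz : Matrix n n ℂ} {w : n → ℂ} {m : ℕ}
    (h : IsLadder Lp Lm Lz w m) : Lz * hwProj Lm w (m + 1) = hwProj Lm w (m + 1) * Lz := by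
  rw [hw2b_mul_proj, hw2b_proj_mul]
  refine Finset.sum_congr rfl (fun k _ => ?_)
  have hc : star ((m : ℂ) / 2 - (k : ℂ)) = (m : ℂ) / 2 - (k : ℂ) := by simp
  rw [h.herm.eq, hw_z h k, Matrix.smul_vecMulVec, star_smul, Matrix.vecMulVec_smul, hc]

theorem hwProj_comm_m {Lp Lm Lz : Matrix n n ℂ} {w : n → ℂ} {m : ℕ}
    (h : IsLadder Lp Lm Lz w m) : Lm * hwProj Lm w (m + 1) = hwProj Lm w (m + 1) * Lm := by
  rw [hw2b_mul_proj, hw2b_proj_mul, Finset.sum_range_succ, Finset.sum_range_succ', h.adj]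
  have htop : Lm *ᵥ hwVec Lm w m = 0 := by
    rw [← hwVec_succ]
    exact hw_top h
  have hbot : Lp *ᵥ hwVec Lm w 0 = 0 := by
    rw [hwVec_zero]
    exact h.top
  rw [htop, hbot]
  simp only [Matrix.zero_vecMulVec, star_zero, Matrix.vecMulVec_zero, smul_zero, add_zero]
  refine Finset.sum_congr rfl (fun k hk => ?_)
  have hk' : k < m := Finset.mem_range.1 hk
  have hstar : star (((k : ℂ) + 1) * ((m : ℂ) - (k : ℂ))) = ((k : ℂ) + 1) * ((m : ℂ) - (k : ℂ)) := by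
    simp
  rw [hw_p h k, ← hwVec_succ, star_smul, Matrix.vecMulVec_smul, smul_smul, hstar]
  congr 1
  rw [hw_norm_succ h k]
  have hpos := hw_norm_pos h (le_of_lt hk')
  have hn : ((hwNorm Lm w k : ℝ) : ℂ) ≠ 0 := by exact_mod_cast hpos.ne'
  have h1 : ((k : ℂ) + 1) ≠ 0 := by exact_mod_cast Nat.succ_ne_zero k
  have h2 : ((m : ℂ) - (k : ℂ)) ≠ 0 := by
    rw [sub_ne_zero]
    exact_mod_cast (ne_of_gt hk')
  push_cast
  field_simp

theorem hwProj_comm_p {Lp Lm Lz : Matrix n n ℂ} {w : n → ℂ} {m : ℕ}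
    (h : IsLadder Lp Lm Lz w m) : Lp * hwProj Lm w (m + 1) = hwProj Lm w (m + 1) * Lp := by
  have hm := hwProj_comm_m h
  have hP := hwProj_isHermitian Lm w (m + 1)
  have hc := congrArg Matrix.conjTranspose hm
  rw [Matrix.conjTranspose_mul, Matrix.conjTranspose_mul, hP.eq, h.adj] at hc
  exact hc.symm

theorem hw2b_cas_vec {Lp Lm Lz : Matrix n n ℂ} {w : n → ℂ} {m : ℕ}
    (h : IsLadder Lp Lm Lz w m) (k : ℕ) :
    (Lm * Lp + Lz * Lz + Lz) *ᵥ hwVec Lm w k =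
      (((m : ℂ) / 2) * ((m : ℂ) / 2 + 1)) • hwVec Lm w k := by
  rw [Matrix.add_mulVec, Matrix.add_mulVec, ← Matrix.mulVec_mulVec, ← Matrix.mulVec_mulVec]
  cases k with
  | zero =>
    rw [hwVec_zero, h.top, h.weight, Matrix.mulVec_zero, Matrix.mulVec_smul, h.weight, zero_add,
      smul_smul, ← add_smul]
    congr 1
    ring
  | succ j =>
    rw [hw_p h j, hw_z h (j + 1), Matrix.mulVec_smul, Matrix.mulVec_smul, ← hwVec_succ,
      hw_z h (j + 1), smul_smul, ← add_smul, ← add_smul]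
    congr 1
    push_cast
    ring

theorem hwProj_casimir {Lp Lm Lz : Matrix n n ℂ} {w : n → ℂ} {m : ℕ}
    (h : IsLadder Lp Lm Lz w m) :
    (Lm * Lp + Lz * Lz + Lz) * hwProj Lm w (m + 1) =
      (((m : ℂ) / 2) * ((m : ℂ) / 2 + 1)) • hwProj Lm w (m + 1) := by
  rw [hw2b_mul_proj]
  unfold hwProj
  rw [Finset.smul_sum]
  refine Finset.sum_congr rfl (fun k _ => ?_)
  rw [hw2b_cas_vec h k, Matrix.smul_vecMulVec, smul_comm]

end Vale.Agent.H96.FQH
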