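import Vale.Agent.H96.FQH.Defs

/-!
# `pairOp i j` is a star-algebra homomorphism (for `i ≠ j`)
-/

open Matrix

namespace Vale.Agent.H96.FQH

set_option linter.unusedSectionVars false

variable {N : ℕ} {α : Type*} [Fintype α] [DecidableEq α]

theorem pairOp_apply (i j : Fin N) (B : Matrix (Fin 2 → α) (Fin 2 → α) ℂ) (σ τ : Fin N → α) :
    pairOp i j B σ τ =
      if ∀ k, k ≠ i → k ≠ j → σ k = τ k then B ![σ i, σ j] ![τ i, τ j] else 0 := rfl

theorem pairOp_zero (i j : Fin N) : pairOp i j (0 : Matrix (Fin 2 → α) (Fin 2 → α) ℂ) = 0 := by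
  ext σ τ
  simp only [pairOp_apply, Matrix.zero_apply]
  split_ifs <;> rfl

theorem pairOp_add (i j : Fin N) (A B : Matrix (Fin 2 → α) (Fin 2 → α) ℂ) :
    pairOp i j (A + B) = pairOp i j A + pairOp i j B := by
  ext σ τ
  simp only [pairOp_apply, Matrix.add_apply]
  split_ifs <;> simp

theorem pairOp_sub (i j : Fin N) (A B : Matrix (Fin 2 → α) (Fin 2 → α) ℂ) :
    pairOp i j (A - B) = pairOp i j A - pairOp i j B := by
  ext σ τ
  simp only [pairOp_apply, Matrix.sub_apply]
  split_ifs <;> simp

theorem pairOp_neg (i j : Fin N) (A : Matrix (Fin 2 → α) (Fin 2 → α) ℂ) :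
    pairOp i j (-A) = -pairOp i j A := by
  ext σ τ
  simp only [pairOp_apply, Matrix.neg_apply]
  split_ifs <;> simp

theorem pairOp_smul (i j : Fin N) (c : ℂ) (A : Matrix (Fin 2 → α) (Fin 2 → α) ℂ) :
    pairOp i j (c • A) = c • pairOp i j A := by
  ext σ τ
  simp only [pairOp_apply, Matrix.smul_apply]
  split_ifs <;> simp

theorem pairOp_sum {ι : Type*} (i j : Fin N) (s : Finset ι)
    (f : ι → Matrix (Fin 2 → α) (Fin 2 → α) ℂ) :
    pairOp i j (∑ x ∈ s, f x) = ∑ x ∈ s, pairOp i j (f x) := by
  classical
  induction s using Finset.induction_on with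
  | empty => simp [pairOp_zero]
  | insert a s ha ih => rw [Finset.sum_insert ha, Finset.sum_insert ha, pairOp_add, ih]

theorem pairOp_conjTranspose (i j : Fin N) (B : Matrix (Fin 2 → α) (Fin 2 → α) ℂ) :
    (pairOp i j B)ᴴ = pairOp i j Bᴴ := by
  ext σ τ
  simp only [pairOp_apply, Matrix.conjTranspose_apply]
  by_cases h : ∀ k, k ≠ i → k ≠ j → σ k = τ k
  · have h' : ∀ k, k ≠ i → k ≠ j → τ k = σ k := fun k hi hj => (h k hi hj).symm
    rw [if_pos h, if_pos h']
  · have h' : ¬ ∀ k, k ≠ i → k ≠ j → τ k = σ k :=
      fun h' => h fun k hi hj => (h' k hi hj).symm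
    rw [if_neg h, if_neg h']; simp

theorem pairOp_one {i j : Fin N} (hij : i ≠ j) :
    pairOp i j (1 : Matrix (Fin 2 → α) (Fin 2 → α) ℂ) = 1 := by
  ext σ τ
  simp only [pairOp_apply, Matrix.one_apply]
  by_cases h : σ = τ
  · subst h; simp
  · rw [if_neg h]
    split_ifs with h1 h2
    · exfalso; apply h; ext k
      by_cases hi : k = i
      · subst hi
        have := congrFun h2 0
        simpa using this
      · by_cases hj : k = j
        · subst hj
          have := congrFun h2 1
          simpa using this
        · exact h1 k hi hj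
    · rfl
    · rfl

/-- A vector indexed by `Fin 2` is the pair of its two entries. -/
theorem pairOpAlg_vecTwo_eta {β : Type*} (p : Fin 2 → β) : ![p 0, p 1] = p := by
  ext x
  fin_cases x <;> rfl

/-- Rewriting the two sites `i`, `j` with the values already there changes nothing. -/
theorem pairOpAlg_update_agree {i j : Fin N} (σ τ : Fin N → α)
    (h : ∀ k, k ≠ i → k ≠ j → σ k = τ k) :
    Function.update (Function.update σ i (τ i)) j (τ j) = τ := by
  ext k
  by_cases hj : k = j
  · subst hj; simp
  · rw [Function.update_of_ne hj]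
    by_cases hi : k = i
    · subst hi; simp
    · rw [Function.update_of_ne hi]; exact h k hi hj

/-- Rewriting the two sites `i`, `j` twice keeps only the second pair of values. -/
theorem pairOpAlg_update_four {i j : Fin N} (hij : i ≠ j) (σ : Fin N → α) (a b c d : α) :
    Function.update (Function.update (Function.update (Function.update σ i a) j b) i c) j d =
      Function.update (Function.update σ i c) j d := by
  ext k
  by_cases hj : k = j
  · subst hj; simp
  · rw [Function.update_of_ne hj, Function.update_of_ne hj]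
    by_cases hi : k = i
    · subst hi; simp
    · rw [Function.update_of_ne hi, Function.update_of_ne hi, Function.update_of_ne hj,
        Function.update_of_ne hi]

theorem pairOp_mulVec {i j : Fin N} (hij : i ≠ j) (B : Matrix (Fin 2 → α) (Fin 2 → α) ℂ)
    (Ψ : (Fin N → α) → ℂ) (σ : Fin N → α) :
    (pairOp i j B *ᵥ Ψ) σ =
      ∑ p : Fin 2 → α, B ![σ i, σ j] p * Ψ (Function.update (Function.update σ i (p 0)) j (p 1)) := by
  unfold Matrix.mulVec dotProduct
  simp only [pairOp_apply, ite_mul, zero_mul]
  rw [← Finset.sum_filter]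
  refine Finset.sum_nbij' (fun τ => ![τ i, τ j])
    (fun p => Function.update (Function.update σ i (p 0)) j (p 1)) ?_ ?_ ?_ ?_ ?_
  · intro τ _; exact Finset.mem_univ _
  · intro p _
    rw [Finset.mem_filter]
    refine ⟨Finset.mem_univ _, fun k hi hj => ?_⟩
    rw [Function.update_of_ne hj, Function.update_of_ne hi]
  · intro τ hτ
    rw [Finset.mem_filter] at hτ
    exact pairOpAlg_update_agree σ τ hτ.2
  · intro p _
    have h0 : Function.update (Function.update σ i (p 0)) j (p 1) i = p 0 := by
      rw [Function.update_of_ne hij, Function.update_self]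
    have h1 : Function.update (Function.update σ i (p 0)) j (p 1) j = p 1 := by
      rw [Function.update_self]
    show ![Function.update (Function.update σ i (p 0)) j (p 1) i,
      Function.update (Function.update σ i (p 0)) j (p 1) j] = p
    rw [h0, h1]
    exact pairOpAlg_vecTwo_eta p
  · intro τ hτ
    rw [Finset.mem_filter] at hτ
    have h := pairOpAlg_update_agree σ τ hτ.2
    show B ![σ i, σ j] ![τ i, τ j] * Ψ τ =
      B ![σ i, σ j] ![τ i, τ j] *
        Ψ (Function.update (Function.update σ i (![τ i, τ j] 0)) j (![τ i, τ j] 1))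
    have e0 : (![τ i, τ j] : Fin 2 → α) 0 = τ i := rfl
    have e1 : (![τ i, τ j] : Fin 2 → α) 1 = τ j := rfl
    rw [e0, e1, h]

theorem pairOp_mul {i j : Fin N} (hij : i ≠ j) (A B : Matrix (Fin 2 → α) (Fin 2 → α) ℂ) :
    pairOp i j (A * B) = pairOp i j A * pairOp i j B := by
  apply Matrix.mulVec_injective
  funext Ψ σ
  rw [← Matrix.mulVec_mulVec, pairOp_mulVec hij, pairOp_mulVec hij]
  have key : ∀ p : Fin 2 → α,
      (pairOp i j B *ᵥ Ψ) (Function.update (Function.update σ i (p 0)) j (p 1)) =
        ∑ q : Fin 2 → α, B p q * Ψ (Function.update (Function.update σ i (q 0)) j (q 1)) := by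
    intro p
    rw [pairOp_mulVec hij]
    have h0 : Function.update (Function.update σ i (p 0)) j (p 1) i = p 0 := by
      rw [Function.update_of_ne hij, Function.update_self]
    have h1 : Function.update (Function.update σ i (p 0)) j (p 1) j = p 1 := by
      rw [Function.update_self]
    rw [h0, h1, pairOpAlg_vecTwo_eta p]
    refine Finset.sum_congr rfl fun q _ => ?_
    rw [pairOpAlg_update_four hij]
  simp only [key, Matrix.mul_apply, Finset.sum_mul, Finset.mul_sum]
  rw [Finset.sum_comm]
  refine Finset.sum_congr rfl fun k _ => Finset.sum_congr rfl fun l _ => ?_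
  ring

end Vale.Agent.H96.FQH
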