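import Vale.Agent.H96.FQH.Defs

/-!
# The exchange operators `swapOp i j`
-/

open Matrix

namespace Vale.Agent.H96.FQH

set_option linter.unusedSectionVars false

variable {N : ℕ} {α : Type*} [Fintype α] [DecidableEq α]

theorem swapOp_apply (i j : Fin N) (σ τ : Fin N → α) :
    (swapOp i j : Matrix (Fin N → α) (Fin N → α) ℂ) σ τ =
      if τ = σ ∘ Equiv.swap i j then 1 else 0 := rfl

theorem swapOp_mulVec (i j : Fin N) (Ψ : (Fin N → α) → ℂ) (σ : Fin N → α) :
    (swapOp i j *ᵥ Ψ) σ = Ψ (σ ∘ Equiv.swap i j) := by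
  unfold Matrix.mulVec dotProduct
  simp only [swapOp_apply, ite_mul, one_mul, zero_mul]
  rw [Finset.sum_ite_eq']
  simp

/-- Composing twice with a transposition gives back the configuration. -/
theorem comp_swap_comp_swap (i j : Fin N) (σ : Fin N → α) :
    (σ ∘ Equiv.swap i j) ∘ Equiv.swap i j = σ := by
  funext k
  simp

theorem eq_comp_swap_iff (i j : Fin N) (σ τ : Fin N → α) :
    τ = σ ∘ Equiv.swap i j ↔ σ = τ ∘ Equiv.swap i j := by
  constructor
  · intro h
    rw [h, comp_swap_comp_swap]
  · intro h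
    rw [h, comp_swap_comp_swap]

theorem swapOp_isHermitian (i j : Fin N) :
    (swapOp i j : Matrix (Fin N → α) (Fin N → α) ℂ).IsHermitian := by
  ext σ τ
  rw [Matrix.conjTranspose_apply, swapOp_apply, swapOp_apply]
  by_cases h : τ = σ ∘ Equiv.swap i j
  · have h' : σ = τ ∘ Equiv.swap i j := (eq_comp_swap_iff i j σ τ).1 h
    rw [if_pos h, if_pos h']
    simp
  · have h' : ¬ σ = τ ∘ Equiv.swap i j := fun h' => h ((eq_comp_swap_iff i j σ τ).2 h')
    rw [if_neg h, if_neg h']
    simp

theorem swapOp_mul_self (i j : Fin N) :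
    (swapOp i j : Matrix (Fin N → α) (Fin N → α) ℂ) * swapOp i j = 1 := by
  apply Matrix.mulVec_injective
  funext Ψ σ
  rw [← Matrix.mulVec_mulVec, swapOp_mulVec, swapOp_mulVec, Matrix.one_mulVec,
    comp_swap_comp_swap]

theorem swapOp_symm (i j : Fin N) :
    (swapOp i j : Matrix (Fin N → α) (Fin N → α) ℂ) = swapOp j i := by
  ext σ τ
  rw [swapOp_apply, swapOp_apply, Equiv.swap_comm]

/-- Two successive updates realise the transposition of two entries. -/
theorem update_update_eq_comp_swap {i j : Fin N} (hij : i ≠ j) (σ : Fin N → α) :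
    Function.update (Function.update σ i (σ j)) j (σ i) = σ ∘ Equiv.swap i j := by
  funext k
  by_cases hkj : k = j
  · subst hkj
    simp
  · by_cases hki : k = i
    · subst hki
      rw [Function.update_of_ne hkj]
      simp
    · rw [Function.update_of_ne hkj, Function.update_of_ne hki, Function.comp_apply,
        Equiv.swap_apply_of_ne_of_ne hki hkj]

theorem siteOp_single_mulVec_aux {i j : Fin N} (hij : i ≠ j) (a b : α)
    (Ψ : (Fin N → α) → ℂ) (σ : Fin N → α) :
    (siteOp i (Matrix.single b a (1 : ℂ)) *ᵥ (siteOp j (Matrix.single a b (1 : ℂ)) *ᵥ Ψ)) σ =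
      if b = σ i ∧ a = σ j then Ψ (σ ∘ Equiv.swap i j) else 0 := by
  rw [siteOp_mulVec]
  have h1 : ∀ k : α, Matrix.single b a (1 : ℂ) (σ i) k *
      (siteOp j (Matrix.single a b (1 : ℂ)) *ᵥ Ψ) (Function.update σ i k) =
      if k = a then (if b = σ i ∧ a = σ j then Ψ (σ ∘ Equiv.swap i j) else 0) else 0 := by
    intro k
    rw [Matrix.single_apply]
    by_cases hk : k = a
    · subst hk
      rw [if_pos rfl]
      by_cases hb : b = σ i
      · subst hb
        rw [if_pos ⟨rfl, rfl⟩, one_mul, siteOp_mulVec, Function.update_of_ne hij.symm]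
        have h2 : ∀ l : α, Matrix.single k (σ i) (1 : ℂ) (σ j) l *
            Ψ (Function.update (Function.update σ i k) j l) =
            if l = σ i then (if k = σ j then Ψ (σ ∘ Equiv.swap i j) else 0) else 0 := by
          intro l
          rw [Matrix.single_apply]
          by_cases hl : l = σ i
          · subst hl
            rw [if_pos rfl]
            by_cases hkj : k = σ j
            · subst hkj
              rw [if_pos ⟨rfl, rfl⟩, if_pos rfl, one_mul, update_update_eq_comp_swap hij]
            · rw [if_neg (fun h => hkj h.1), if_neg hkj, zero_mul]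
          · rw [if_neg (fun h => hl h.2.symm), if_neg hl, zero_mul]
        rw [Finset.sum_congr rfl (fun l _ => h2 l), Finset.sum_ite_eq']
        simp
      · rw [if_neg (fun h => hb h.1), if_neg (fun h => hb h.1), zero_mul]
    · rw [if_neg (fun h => hk h.2.symm), if_neg hk, zero_mul]
  rw [Finset.sum_congr rfl (fun k _ => h1 k), Finset.sum_ite_eq']
  simp

/-- The exchange operator as a sum of products of matrix units. -/
theorem swapOp_eq_sum {i j : Fin N} (hij : i ≠ j) :
    (swapOp i j : Matrix (Fin N → α) (Fin N → α) ℂ) =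
      ∑ a : α, ∑ b : α, siteOp i (Matrix.single b a (1 : ℂ)) * siteOp j (Matrix.single a b (1 : ℂ)) := by
  apply Matrix.mulVec_injective
  funext Ψ σ
  rw [swapOp_mulVec, Matrix.sum_mulVec, Finset.sum_apply]
  have h1 : ∀ a : α, ((∑ b : α, siteOp i (Matrix.single b a (1 : ℂ)) *
      siteOp j (Matrix.single a b (1 : ℂ))) *ᵥ Ψ) σ =
      if a = σ j then Ψ (σ ∘ Equiv.swap i j) else 0 := by
    intro a
    rw [Matrix.sum_mulVec, Finset.sum_apply]
    have h2 : ∀ b : α, ((siteOp i (Matrix.single b a (1 : ℂ)) *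
        siteOp j (Matrix.single a b (1 : ℂ))) *ᵥ Ψ) σ =
        if b = σ i then (if a = σ j then Ψ (σ ∘ Equiv.swap i j) else 0) else 0 := by
      intro b
      rw [← Matrix.mulVec_mulVec, siteOp_single_mulVec_aux hij]
      by_cases hb : b = σ i
      · by_cases ha : a = σ j
        · rw [if_pos ⟨hb, ha⟩, if_pos hb, if_pos ha]
        · rw [if_neg (fun h => ha h.2), if_pos hb, if_neg ha]
      · rw [if_neg (fun h => hb h.1), if_neg hb]
    rw [Finset.sum_congr rfl (fun b _ => h2 b), Finset.sum_ite_eq']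
    simp
  rw [Finset.sum_congr rfl (fun a _ => h1 a), Finset.sum_ite_eq']
  simp

theorem isAntisym_iff (Ψ : (Fin N → α) → ℂ) :
    IsAntisym Ψ ↔ ∀ i j : Fin N, i ≠ j → swapOp i j *ᵥ Ψ = -Ψ := by
  constructor
  · intro h i j hij
    funext σ
    rw [swapOp_mulVec, Pi.neg_apply]
    exact h i j hij σ
  · intro h i j hij σ
    have h1 := congrFun (h i j hij) σ
    rw [swapOp_mulVec, Pi.neg_apply] at h1
    exact h1

theorem pair_swap_iff (x y u v : α) :
    (![u, v] : Fin 2 → α) = ![x, y] ∘ Equiv.swap (0 : Fin 2) 1 ↔ u = y ∧ v = x := by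
  constructor
  · intro h
    have h0 := congrFun h 0
    have h1 := congrFun h 1
    simp at h0 h1
    exact ⟨h0, h1⟩
  · rintro ⟨h0, h1⟩
    subst h0
    subst h1
    funext k
    fin_cases k <;> simp

theorem pairOp_swapOp {i j : Fin N} (hij : i ≠ j) :
    pairOp i j (swapOp (0 : Fin 2) 1 : Matrix (Fin 2 → α) (Fin 2 → α) ℂ) = swapOp i j := by
  ext σ τ
  rw [swapOp_apply]
  show (if ∀ k, k ≠ i → k ≠ j → σ k = τ k then
    (swapOp (0 : Fin 2) 1 : Matrix (Fin 2 → α) (Fin 2 → α) ℂ) ![σ i, σ j] ![τ i, τ j] else 0) = _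
  rw [swapOp_apply]
  by_cases h : τ = σ ∘ Equiv.swap i j
  · have hk : ∀ k, k ≠ i → k ≠ j → σ k = τ k := by
      intro k hki hkj
      rw [h, Function.comp_apply, Equiv.swap_apply_of_ne_of_ne hki hkj]
    have hp : (![τ i, τ j] : Fin 2 → α) = ![σ i, σ j] ∘ Equiv.swap (0 : Fin 2) 1 := by
      rw [pair_swap_iff]
      constructor
      · rw [h, Function.comp_apply, Equiv.swap_apply_left]
      · rw [h, Function.comp_apply, Equiv.swap_apply_right]
    rw [if_pos hk, if_pos hp, if_pos h]
  · rw [if_neg h]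
    by_cases hk : ∀ k, k ≠ i → k ≠ j → σ k = τ k
    · rw [if_pos hk]
      have hp : ¬ (![τ i, τ j] : Fin 2 → α) = ![σ i, σ j] ∘ Equiv.swap (0 : Fin 2) 1 := by
        intro hp
        rw [pair_swap_iff] at hp
        apply h
        funext k
        by_cases hki : k = i
        · subst hki
          rw [Function.comp_apply, Equiv.swap_apply_left]
          exact hp.1
        · by_cases hkj : k = j
          · subst hkj
            rw [Function.comp_apply, Equiv.swap_apply_right]
            exact hp.2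
          · rw [Function.comp_apply, Equiv.swap_apply_of_ne_of_ne hki hkj]
            exact (hk k hki hkj).symm
      rw [if_neg hp]
    · rw [if_neg hk]

end Vale.Agent.H96.FQH
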