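import Vale.Agent.H96.FQH.HW2a
import Vale.Agent.H96.FQH.SwapOp

/-!
# The pair projection is supported on antisymmetric pair vectors
-/

open Matrix

namespace Vale.Agent.H96.FQH

/-- Composition with the exchange of the two sites, evaluated. -/
theorem comp_swap_zero {α : Type*} (σ : Fin 2 → α) :
    (σ ∘ Equiv.swap (0 : Fin 2) 1) 0 = σ 1 := by
  simp

theorem comp_swap_one {α : Type*} (σ : Fin 2 → α) :
    (σ ∘ Equiv.swap (0 : Fin 2) 1) 1 = σ 0 := by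
  simp

theorem update_comp_swap_zero {α : Type*} (σ : Fin 2 → α) (k : α) :
    Function.update (σ ∘ Equiv.swap (0 : Fin 2) 1) 0 k
      = Function.update σ 1 k ∘ Equiv.swap (0 : Fin 2) 1 := by
  funext y
  fin_cases y <;> simp

theorem update_comp_swap_one {α : Type*} (σ : Fin 2 → α) (k : α) :
    Function.update (σ ∘ Equiv.swap (0 : Fin 2) 1) 1 k
      = Function.update σ 0 k ∘ Equiv.swap (0 : Fin 2) 1 := by
  funext y
  fin_cases y <;> simp

/-- The exchange operator moves a one-site operator from site `0` to site `1`. -/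
theorem pairSwap_mul_siteOp_zero {α : Type*} [Fintype α] [DecidableEq α] (X : Matrix α α ℂ) :
    (swapOp 0 1 : Matrix (Fin 2 → α) (Fin 2 → α) ℂ) * siteOp 0 X = siteOp 1 X * swapOp 0 1 := by
  apply Matrix.mulVec_injective
  funext ψ σ
  rw [← Matrix.mulVec_mulVec, ← Matrix.mulVec_mulVec, swapOp_mulVec, siteOp_mulVec,
    siteOp_mulVec]
  refine Finset.sum_congr rfl fun k _ => ?_
  rw [swapOp_mulVec, comp_swap_zero, update_comp_swap_zero]

/-- The exchange operator moves a one-site operator from site `1` to site `0`. -/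
theorem pairSwap_mul_siteOp_one {α : Type*} [Fintype α] [DecidableEq α] (X : Matrix α α ℂ) :
    (swapOp 0 1 : Matrix (Fin 2 → α) (Fin 2 → α) ℂ) * siteOp 1 X = siteOp 0 X * swapOp 0 1 := by
  apply Matrix.mulVec_injective
  funext ψ σ
  rw [← Matrix.mulVec_mulVec, ← Matrix.mulVec_mulVec, swapOp_mulVec, siteOp_mulVec,
    siteOp_mulVec]
  refine Finset.sum_congr rfl fun k _ => ?_
  rw [swapOp_mulVec, comp_swap_one, update_comp_swap_one]

theorem pairSwap_mul_pairLm (Q : ℕ) :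
    (swapOp 0 1 : Matrix (Pair Q) (Pair Q) ℂ) * pairLm Q = pairLm Q * swapOp 0 1 := by
  unfold pairLm
  rw [Matrix.mul_add, Matrix.add_mul, pairSwap_mul_siteOp_zero, pairSwap_mul_siteOp_one]
  exact add_comm _ _

theorem pairSwap_mulVec_pairW0 (Q : ℕ) :
    (swapOp 0 1 : Matrix (Pair Q) (Pair Q) ℂ) *ᵥ pairW0 Q = (-1 : ℂ) • pairW0 Q := by
  funext σ
  rw [swapOp_mulVec]
  show pairW0 Q (σ ∘ Equiv.swap (0 : Fin 2) 1) = (-1 : ℂ) * pairW0 Q σ
  unfold pairW0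
  rw [comp_swap_zero, comp_swap_one]
  by_cases h1 : ((σ 0 : ℕ) = 0 ∧ (σ 1 : ℕ) = 1)
  · have h2 : ¬ ((σ 1 : ℕ) = 0 ∧ (σ 0 : ℕ) = 1) := by omega
    have h3 : ((σ 1 : ℕ) = 1 ∧ (σ 0 : ℕ) = 0) := ⟨h1.2, h1.1⟩
    rw [if_pos h1, if_neg h2, if_pos h3]
    ring
  · by_cases h4 : ((σ 0 : ℕ) = 1 ∧ (σ 1 : ℕ) = 0)
    · have h5 : ((σ 1 : ℕ) = 0 ∧ (σ 0 : ℕ) = 1) := ⟨h4.2, h4.1⟩
      rw [if_neg h1, if_pos h4, if_pos h5]
      ring
    · have h5 : ¬ ((σ 1 : ℕ) = 0 ∧ (σ 0 : ℕ) = 1) := fun h => h4 ⟨h.2, h.1⟩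
      have h6 : ¬ ((σ 1 : ℕ) = 1 ∧ (σ 0 : ℕ) = 0) := fun h => h1 ⟨h.2, h.1⟩
      rw [if_neg h1, if_neg h4, if_neg h5, if_neg h6]
      ring

theorem pairSwap_mul_pairProj (Q : ℕ) :
    (swapOp 0 1 : Matrix (Pair Q) (Pair Q) ℂ) * pairProj Q = -pairProj Q := by
  unfold pairProj
  rw [hwProj_eigen (pairSwap_mul_pairLm Q) (pairSwap_mulVec_pairW0 Q) (2 * Q - 1)]
  simp

theorem pairProj_mul_pairSwap (Q : ℕ) :
    pairProj Q * (swapOp 0 1 : Matrix (Pair Q) (Pair Q) ℂ) = -pairProj Q := by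
  have hF : (swapOp 0 1 : Matrix (Pair Q) (Pair Q) ℂ)ᴴ = swapOp 0 1 := swapOp_isHermitian 0 1
  have hP : (pairProj Q)ᴴ = pairProj Q := hwProj_isHermitian (pairLm Q) (pairW0 Q) (2 * Q - 1)
  have h := congrArg Matrix.conjTranspose (pairSwap_mul_pairProj Q)
  rw [Matrix.conjTranspose_mul, Matrix.conjTranspose_neg, hF, hP] at h
  exact h

end Vale.Agent.H96.FQH
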