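import Vale.Agent.H96.FQH.SwapOp

/-!
# Conjugation of pair and site operators by exchange operators
-/

open Matrix

namespace Vale.Agent.H96.FQH

set_option linter.unusedSectionVars false

variable {N : ℕ} {α : Type*} [Fintype α] [DecidableEq α]

/-- Conjugating any matrix by an exchange operator permutes both indices. -/
theorem swapOp_conj_apply (k l : Fin N) (A : Matrix (Fin N → α) (Fin N → α) ℂ)
    (σ τ : Fin N → α) :
    (swapOp k l * A * swapOp k l : Matrix (Fin N → α) (Fin N → α) ℂ) σ τ =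
      A (σ ∘ Equiv.swap k l) (τ ∘ Equiv.swap k l) := by
  rw [Matrix.mul_apply]
  have h1 : ∀ ρ, (swapOp k l * A : Matrix (Fin N → α) (Fin N → α) ℂ) σ ρ =
      A (σ ∘ Equiv.swap k l) ρ := by
    intro ρ
    rw [Matrix.mul_apply]
    simp only [swapOp_apply, ite_mul, one_mul, zero_mul]
    rw [Finset.sum_ite_eq']
    simp
  have h2 : ∀ ρ : Fin N → α, (τ = ρ ∘ Equiv.swap k l) ↔ (ρ = τ ∘ Equiv.swap k l) := by
    intro ρ
    constructor
    · intro h; rw [h]; funext x; simp
    · intro h; rw [h]; funext x; simp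
  simp only [h1, swapOp_apply, mul_ite, mul_one, mul_zero, h2]
  rw [Finset.sum_ite_eq']
  simp

theorem swapOp_conj_pairOp (k l i j : Fin N) (B : Matrix (Fin 2 → α) (Fin 2 → α) ℂ) :
    swapOp k l * pairOp i j B * swapOp k l = pairOp (Equiv.swap k l i) (Equiv.swap k l j) B := by
  ext σ τ
  rw [swapOp_conj_apply]
  unfold pairOp
  simp only [Matrix.of_apply, Function.comp_apply]
  have hiff : (∀ x, x ≠ i → x ≠ j → σ (Equiv.swap k l x) = τ (Equiv.swap k l x)) ↔
      (∀ y, y ≠ Equiv.swap k l i → y ≠ Equiv.swap k l j → σ y = τ y) := by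
    constructor
    · intro h y hy1 hy2
      have h' := h (Equiv.swap k l y)
        (fun e => hy1 (by rw [← e, Equiv.swap_apply_self]))
        (fun e => hy2 (by rw [← e, Equiv.swap_apply_self]))
      rwa [Equiv.swap_apply_self] at h'
    · intro h x hx1 hx2
      exact h (Equiv.swap k l x)
        (fun e => hx1 ((Equiv.swap k l).injective e))
        (fun e => hx2 ((Equiv.swap k l).injective e))
  by_cases hc : ∀ y, y ≠ Equiv.swap k l i → y ≠ Equiv.swap k l j → σ y = τ y
  · rw [if_pos (hiff.2 hc), if_pos hc]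
  · rw [if_neg (fun h => hc (hiff.1 h)), if_neg hc]

theorem pairOp_symm (i j : Fin N) (B : Matrix (Fin 2 → α) (Fin 2 → α) ℂ) :
    pairOp j i B = pairOp i j (swapOp 0 1 * B * swapOp 0 1) := by
  ext σ τ
  unfold pairOp
  simp only [Matrix.of_apply]
  have hiff : (∀ x, x ≠ j → x ≠ i → σ x = τ x) ↔ (∀ x, x ≠ i → x ≠ j → σ x = τ x) :=
    ⟨fun h x h1 h2 => h x h2 h1, fun h x h1 h2 => h x h2 h1⟩
  have hswap : ∀ a b : α, (![a, b] : Fin 2 → α) ∘ Equiv.swap (0 : Fin 2) 1 = ![b, a] := by
    intro a b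
    funext x
    fin_cases x <;> simp
  by_cases hc : ∀ x, x ≠ i → x ≠ j → σ x = τ x
  · rw [if_pos (hiff.2 hc), if_pos hc, swapOp_conj_apply (N := 2) (0 : Fin 2) 1 B, hswap, hswap]
  · rw [if_neg (fun h => hc (hiff.1 h)), if_neg hc]

theorem swapOp_conj_siteOp (k l i : Fin N) (X : Matrix α α ℂ) :
    (swapOp k l : Matrix (Fin N → α) (Fin N → α) ℂ) * siteOp i X * swapOp k l =
      siteOp (Equiv.swap k l i) X := by
  ext σ τ
  rw [swapOp_conj_apply, siteOp_apply, siteOp_apply]
  simp only [Function.comp_apply]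
  have hiff : (∀ x, x ≠ i → σ (Equiv.swap k l x) = τ (Equiv.swap k l x)) ↔
      (∀ y, y ≠ Equiv.swap k l i → σ y = τ y) := by
    constructor
    · intro h y hy1
      have h' := h (Equiv.swap k l y)
        (fun e => hy1 (by rw [← e, Equiv.swap_apply_self]))
      rwa [Equiv.swap_apply_self] at h'
    · intro h x hx1
      exact h (Equiv.swap k l x) (fun e => hx1 ((Equiv.swap k l).injective e))
  by_cases hc : ∀ y, y ≠ Equiv.swap k l i → σ y = τ y
  · rw [if_pos (hiff.2 hc), if_pos hc]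
  · rw [if_neg (fun h => hc (hiff.1 h)), if_neg hc]

end Vale.Agent.H96.FQH
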