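import Vale.Agent.H96.FQH.PairProj
import Vale.Agent.H96.FQH.PairSwap
import Vale.Agent.H96.FQH.PairOpAlg
import Vale.Agent.H96.FQH.SwapConj

/-!
# The Hamiltonian is Hermitian, nonnegative and preserves antisymmetric vectors
-/

open Matrix

namespace Vale.Agent.H96.FQH

theorem inv_star_dot_nonneg {ι : Type*} [Fintype ι] (v : ι → ℂ) : 0 ≤ (star v ⬝ᵥ v).re := by
  unfold dotProduct
  rw [Complex.re_sum]
  refine Finset.sum_nonneg (fun x _ => ?_)
  have hx : star v x * v x = ((Complex.normSq (v x) : ℝ) : ℂ) := by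
    rw [Pi.star_apply, Complex.star_def, mul_comm]
    exact Complex.mul_conj (v x)
  rw [hx, Complex.ofReal_re]
  exact Complex.normSq_nonneg _

theorem inv_nonneg_of_proj {ι : Type*} [Fintype ι] [DecidableEq ι] (P : Matrix ι ι ℂ)
    (hP : Pᴴ * P = P) (χ : ι → ℂ) : 0 ≤ (star χ ⬝ᵥ (P *ᵥ χ)).re := by
  have h1 : P *ᵥ χ = Pᴴ *ᵥ (P *ᵥ χ) := by rw [Matrix.mulVec_mulVec, hP]
  rw [h1, Matrix.dotProduct_mulVec, ← Matrix.star_mulVec]
  exact inv_star_dot_nonneg _

theorem inv_sum_lt {N : ℕ} {M : Type*} [AddCommMonoid M] (F : Fin N → Fin N → M)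
    (hF : ∀ i j, F i j = F j i) :
    (∑ i : Fin N, ∑ j : Fin N, if i < j then F i j else 0)
        + (∑ i : Fin N, ∑ j : Fin N, if i < j then F i j else 0)
      = ∑ i : Fin N, ∑ j : Fin N, if i ≠ j then F i j else 0 := by
  have h2 : (∑ i : Fin N, ∑ j : Fin N, if i < j then F i j else 0)
      = ∑ i : Fin N, ∑ j : Fin N, if j < i then F i j else 0 := by
    rw [Finset.sum_comm]
    refine Finset.sum_congr rfl (fun i _ => Finset.sum_congr rfl (fun j _ => ?_))
    rw [hF j i]
  have h3 : (∑ i : Fin N, ∑ j : Fin N, if i < j then F i j else 0)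
        + (∑ i : Fin N, ∑ j : Fin N, if j < i then F i j else 0)
      = ∑ i : Fin N, ∑ j : Fin N, if i ≠ j then F i j else 0 := by
    rw [← Finset.sum_add_distrib]
    refine Finset.sum_congr rfl (fun i _ => ?_)
    rw [← Finset.sum_add_distrib]
    refine Finset.sum_congr rfl (fun j _ => ?_)
    rcases lt_trichotomy i j with h | h | h
    · rw [if_pos h, if_neg (not_lt.2 h.le), if_pos h.ne, add_zero]
    · subst h
      simp
    · rw [if_neg (not_lt.2 h.le), if_pos h, if_pos h.ne', zero_add]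
  rw [← h3, ← h2]

theorem inv_sum_ne_perm {N : ℕ} {M : Type*} [AddCommMonoid M] (F : Fin N → Fin N → M)
    (s : Equiv.Perm (Fin N)) :
    (∑ i : Fin N, ∑ j : Fin N, if i ≠ j then F (s i) (s j) else 0)
      = ∑ i : Fin N, ∑ j : Fin N, if i ≠ j then F i j else 0 := by
  rw [← Equiv.sum_comp s (fun i => ∑ j : Fin N, if i ≠ j then F i j else 0)]
  refine Finset.sum_congr rfl (fun i _ => ?_)
  rw [← Equiv.sum_comp s (fun j => if s i ≠ j then F (s i) j else 0)]
  refine Finset.sum_congr rfl (fun j _ => ?_)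
  by_cases h : i = j
  · subst h
    simp
  · rw [if_pos h, if_pos (fun e => h (s.injective e))]

theorem inv_pairOp_symm {N : ℕ} (Q : ℕ) (i j : Fin N) :
    pairOp j i (pairProj Q) = pairOp i j (pairProj Q) := by
  rw [pairOp_symm, pairSwap_mul_pairProj, Matrix.neg_mul, pairProj_mul_pairSwap, neg_neg]

theorem hamL_isHermitian (N Q : ℕ) : (hamL N Q).IsHermitian := by
  unfold Matrix.IsHermitian hamL
  rw [Matrix.conjTranspose_sum]
  refine Finset.sum_congr rfl (fun i _ => ?_)
  rw [Matrix.conjTranspose_sum]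
  refine Finset.sum_congr rfl (fun j _ => ?_)
  split_ifs
  · rw [pairOp_conjTranspose, (pairProj_isHermitian Q).eq]
  · exact Matrix.conjTranspose_zero

theorem pairOp_pairProj_nonneg {N Q : ℕ} (hQ : 1 ≤ Q) {i j : Fin N} (hij : i ≠ j)
    (χ : (Fin N → Fin (Q + 1)) → ℂ) :
    0 ≤ (star χ ⬝ᵥ (pairOp i j (pairProj Q) *ᵥ χ)).re := by
  apply inv_nonneg_of_proj
  rw [pairOp_conjTranspose, (pairProj_isHermitian Q).eq, ← pairOp_mul hij, pairProj_mul_self hQ]

theorem hamL_nonneg {N Q : ℕ} (hQ : 1 ≤ Q) (χ : (Fin N → Fin (Q + 1)) → ℂ) :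
    0 ≤ (star χ ⬝ᵥ (hamL N Q *ᵥ χ)).re := by
  unfold hamL
  rw [Matrix.sum_mulVec, dotProduct_sum, Complex.re_sum]
  refine Finset.sum_nonneg (fun i _ => ?_)
  rw [Matrix.sum_mulVec, dotProduct_sum, Complex.re_sum]
  refine Finset.sum_nonneg (fun j _ => ?_)
  split_ifs with h
  · exact pairOp_pairProj_nonneg hQ (ne_of_lt h) χ
  · rw [Matrix.zero_mulVec, dotProduct_zero]
    simp

theorem hamL_swap_conj (N Q : ℕ) (k l : Fin N) :
    swapOp k l * hamL N Q * swapOp k l = hamL N Q := by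
  have hconj : swapOp k l * hamL N Q * swapOp k l
      = ∑ i : Fin N, ∑ j : Fin N,
          if i < j then pairOp (Equiv.swap k l i) (Equiv.swap k l j) (pairProj Q) else 0 := by
    unfold hamL
    rw [Finset.mul_sum, Finset.sum_mul]
    refine Finset.sum_congr rfl (fun i _ => ?_)
    rw [Finset.mul_sum, Finset.sum_mul]
    refine Finset.sum_congr rfl (fun j _ => ?_)
    split_ifs
    · exact swapOp_conj_pairOp k l i j (pairProj Q)
    · simp
  have hA := inv_sum_lt (fun i j : Fin N => pairOp i j (pairProj Q))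
    (fun i j => inv_pairOp_symm Q j i)
  have hB := inv_sum_lt
    (fun i j : Fin N => pairOp (Equiv.swap k l i) (Equiv.swap k l j) (pairProj Q))
    (fun i j => inv_pairOp_symm Q _ _)
  have hP := inv_sum_ne_perm (fun i j : Fin N => pairOp i j (pairProj Q)) (Equiv.swap k l)
  have hH : hamL N Q = ∑ i : Fin N, ∑ j : Fin N, if i < j then pairOp i j (pairProj Q) else 0 :=
    rfl
  rw [hconj, hH]
  have h2 : (2 : ℂ) • (∑ i : Fin N, ∑ j : Fin N,
        if i < j then pairOp (Equiv.swap k l i) (Equiv.swap k l j) (pairProj Q) else 0)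
      = (2 : ℂ) • (∑ i : Fin N, ∑ j : Fin N, if i < j then pairOp i j (pairProj Q) else 0) := by
    rw [two_smul, two_smul, hA, hB, hP]
  exact smul_right_injective _ (two_ne_zero (α := ℂ)) h2

theorem hamL_antisym (N Q : ℕ) {Ψ : (Fin N → Fin (Q + 1)) → ℂ} (h : IsAntisym Ψ) :
    IsAntisym (hamL N Q *ᵥ Ψ) := by
  rw [isAntisym_iff] at h ⊢
  intro k l hkl
  have h1 := hamL_swap_conj N Q k l
  have hS : swapOp k l * hamL N Q = hamL N Q * swapOp k l := by
    calc swapOp k l * hamL N Q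
        = swapOp k l * hamL N Q * (swapOp k l * swapOp k l) := by
          rw [swapOp_mul_self, Matrix.mul_one]
      _ = (swapOp k l * hamL N Q * swapOp k l) * swapOp k l := by
          rw [← Matrix.mul_assoc]
      _ = hamL N Q * swapOp k l := by rw [h1]
  rw [Matrix.mulVec_mulVec, hS, ← Matrix.mulVec_mulVec, h k l hkl, Matrix.mulVec_neg]

end Vale.Agent.H96.FQH
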