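import Vale.Agent.H96.FQH.DOp
import Vale.Agent.H96.FQH.SwapOp

/-!
# Norm sums of the vectors `dOp a b Ψ` for antisymmetric `Ψ`
-/

open Matrix

namespace Vale.Agent.H96.FQH

set_option linter.unusedSectionVars false

variable {N : ℕ} {α : Type*} [Fintype α] [DecidableEq α]

namespace NormSumsAux

theorem normSq_sum_eq {ι : Type*} [Fintype ι] (v : ι → ℂ) :
    ((∑ σ, Complex.normSq (v σ) : ℝ) : ℂ) = star v ⬝ᵥ v := by
  rw [Complex.ofReal_sum]
  unfold dotProduct
  refine Finset.sum_congr rfl fun σ _ => ?_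
  rw [Complex.normSq_eq_conj_mul_self]
  rfl

theorem normSq_mulVec {ι : Type*} [Fintype ι] [DecidableEq ι] (D : Matrix ι ι ℂ) (v : ι → ℂ) :
    ((∑ σ, Complex.normSq ((D *ᵥ v) σ) : ℝ) : ℂ) = star v ⬝ᵥ ((Dᴴ * D) *ᵥ v) := by
  rw [normSq_sum_eq, Matrix.star_mulVec, ← Matrix.mulVec_mulVec, Matrix.dotProduct_mulVec,
    Matrix.dotProduct_mulVec, Matrix.dotProduct_mulVec, Matrix.vecMul_vecMul]

theorem siteOp_zero (k : Fin N) : siteOp k (0 : Matrix α α ℂ) = 0 := by
  ext σ τ
  simp [siteOp_apply]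

theorem siteOp_sum {ι : Type*} (s : Finset ι) (k : Fin N) (f : ι → Matrix α α ℂ) :
    siteOp k (∑ i ∈ s, f i) = ∑ i ∈ s, siteOp k (f i) := by
  classical
  induction s using Finset.induction_on with
  | empty => simp [siteOp_zero]
  | insert a s ha ih => rw [Finset.sum_insert ha, Finset.sum_insert ha, siteOp_add, ih]

theorem sum_single_diag : ∑ b : α, Matrix.single b b (1 : ℂ) = 1 := by
  ext i j
  rw [Matrix.sum_apply]
  simp only [Matrix.single_apply, Matrix.one_apply]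
  by_cases hij : i = j
  · subst hij
    simp
  · rw [if_neg hij]
    apply Finset.sum_eq_zero
    intro b _
    rw [if_neg]
    rintro ⟨h1, h2⟩
    exact hij (h1.symm.trans h2)

theorem same_site (k : Fin N) :
    ∑ a : α, ∑ b : α, siteOp k (Matrix.single b a (1 : ℂ)) * siteOp k (Matrix.single a b (1 : ℂ))
      = (Fintype.card α : ℂ) • (1 : Matrix (Fin N → α) (Fin N → α) ℂ) := by
  have h1 : ∀ a b : α, siteOp k (Matrix.single b a (1 : ℂ)) * siteOp k (Matrix.single a b (1 : ℂ))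
      = siteOp k (Matrix.single b b (1 : ℂ)) := by
    intro a b
    rw [← siteOp_mul, Matrix.single_mul_single_same, mul_one]
  simp only [h1]
  rw [← siteOp_sum, sum_single_diag, siteOp_one, Finset.sum_const, Finset.card_univ,
    Nat.cast_smul_eq_nsmul]

theorem sum4_comm {M : Type*} [AddCommMonoid M] (X : α → α → Fin N → Fin N → M) :
    ∑ a : α, ∑ b : α, ∑ k : Fin N, ∑ l : Fin N, X a b k l
      = ∑ k : Fin N, ∑ l : Fin N, ∑ a : α, ∑ b : α, X a b k l := by
  calc ∑ a : α, ∑ b : α, ∑ k : Fin N, ∑ l : Fin N, X a b k l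
      = ∑ a : α, ∑ k : Fin N, ∑ b : α, ∑ l : Fin N, X a b k l :=
        Finset.sum_congr rfl fun a _ => Finset.sum_comm
    _ = ∑ k : Fin N, ∑ a : α, ∑ b : α, ∑ l : Fin N, X a b k l := Finset.sum_comm
    _ = ∑ k : Fin N, ∑ a : α, ∑ l : Fin N, ∑ b : α, X a b k l :=
        Finset.sum_congr rfl fun k _ => Finset.sum_congr rfl fun a _ => Finset.sum_comm
    _ = ∑ k : Fin N, ∑ l : Fin N, ∑ a : α, ∑ b : α, X a b k l :=
        Finset.sum_congr rfl fun k _ => Finset.sum_comm

theorem M_eq : ∑ a : α, ∑ b : α, (dOp b a : Matrix (Fin N → α) (Fin N → α) ℂ) * dOp a b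
    = ∑ k : Fin N, ∑ l : Fin N,
        if k = l then (Fintype.card α : ℂ) • (1 : Matrix (Fin N → α) (Fin N → α) ℂ)
        else swapOp k l := by
  have h0 : ∀ a b : α, (dOp b a : Matrix (Fin N → α) (Fin N → α) ℂ) * dOp a b
      = ∑ k : Fin N, ∑ l : Fin N,
          siteOp k (Matrix.single b a (1 : ℂ)) * siteOp l (Matrix.single a b (1 : ℂ)) := by
    intro a b
    unfold dOp
    rw [Finset.sum_mul_sum]
  simp only [h0]
  rw [sum4_comm]
  refine Finset.sum_congr rfl fun k _ => Finset.sum_congr rfl fun l _ => ?_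
  by_cases hkl : k = l
  · subst hkl
    rw [if_pos rfl, same_site]
  · rw [if_neg hkl, swapOp_eq_sum hkl]

theorem M_mulVec {Ψ : (Fin N → α) → ℂ} (h : IsAntisym Ψ) :
    (∑ a : α, ∑ b : α, (dOp b a : Matrix (Fin N → α) (Fin N → α) ℂ) * dOp a b) *ᵥ Ψ
      = ((N : ℂ) * ((Fintype.card α : ℂ) + 1 - (N : ℂ))) • Ψ := by
  rw [M_eq, Matrix.sum_mulVec]
  have h1 : ∀ k : Fin N, (∑ l : Fin N,
        if k = l then (Fintype.card α : ℂ) • (1 : Matrix (Fin N → α) (Fin N → α) ℂ)
        else swapOp k l) *ᵥ Ψ = ((Fintype.card α : ℂ) + 1 - (N : ℂ)) • Ψ := by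
    intro k
    rw [Matrix.sum_mulVec]
    have h2 : ∀ l : Fin N, (if k = l then (Fintype.card α : ℂ) • (1 : Matrix (Fin N → α) (Fin N → α) ℂ)
        else swapOp k l) *ᵥ Ψ = (if k = l then ((Fintype.card α : ℂ) + 1) • Ψ else 0) - Ψ := by
      intro l
      by_cases hkl : k = l
      · rw [if_pos hkl, if_pos hkl, Matrix.smul_mulVec, Matrix.one_mulVec, add_smul, one_smul,
          add_sub_cancel_right]
      · rw [if_neg hkl, if_neg hkl, ((isAntisym_iff Ψ).mp h) k l hkl, zero_sub]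
    simp only [h2]
    rw [Finset.sum_sub_distrib, Finset.sum_ite_eq, if_pos (Finset.mem_univ k), Finset.sum_const,
      Finset.card_univ, Fintype.card_fin, ← Nat.cast_smul_eq_nsmul ℂ, ← sub_smul]
  simp only [h1]
  rw [Finset.sum_const, Finset.card_univ, Fintype.card_fin, ← Nat.cast_smul_eq_nsmul ℂ, smul_smul]

theorem dOp_diag_apply (a : α) (Ψ : (Fin N → α) → ℂ) (σ : Fin N → α) :
    (dOp a a *ᵥ Ψ) σ = ((Finset.univ.filter (fun k : Fin N => σ k = a)).card : ℂ) * Ψ σ := by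
  rw [dOp_mulVec]
  have h1 : ∀ k : Fin N, (if σ k = a then Ψ (Function.update σ k a) else 0)
      = if σ k = a then Ψ σ else 0 := by
    intro k
    by_cases hk : σ k = a
    · rw [if_pos hk, if_pos hk, ← hk, Function.update_eq_self]
    · rw [if_neg hk, if_neg hk]
  simp only [h1]
  rw [← Finset.sum_filter, Finset.sum_const, nsmul_eq_mul]

theorem fiber_sum (σ : Fin N → α) :
    ∑ a : α, (Finset.univ.filter (fun k : Fin N => σ k = a)).card = N := by
  have h := Finset.card_eq_sum_card_fiberwise (f := σ) (s := (Finset.univ : Finset (Fin N)))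
    (t := (Finset.univ : Finset α)) (fun k _ => Finset.mem_univ _)
  rw [Finset.card_univ, Fintype.card_fin] at h
  exact h.symm

theorem fiber_le_one {σ : Fin N → α} (hσ : Function.Injective σ) (a : α) :
    (Finset.univ.filter (fun k : Fin N => σ k = a)).card ≤ 1 := by
  rw [Finset.card_le_one]
  intro k hk l hl
  rw [Finset.mem_filter] at hk hl
  exact hσ (hk.2.trans hl.2.symm)

end NormSumsAux

open NormSumsAux

theorem dOp_norm_sum {Ψ : (Fin N → α) → ℂ} (h : IsAntisym Ψ) :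
    ∑ a : α, ∑ b : α, ∑ σ, Complex.normSq ((dOp a b *ᵥ Ψ) σ) =
      (N : ℝ) * ((Fintype.card α : ℝ) + 1 - (N : ℝ)) * ∑ σ, Complex.normSq (Ψ σ) := by
  apply Complex.ofReal_injective
  rw [Complex.ofReal_mul, normSq_sum_eq, Complex.ofReal_sum]
  have h1 : ∀ a : α, ((∑ b : α, ∑ σ, Complex.normSq ((dOp a b *ᵥ Ψ) σ) : ℝ) : ℂ)
      = ∑ b : α, star Ψ ⬝ᵥ ((dOp b a * dOp a b) *ᵥ Ψ) := by
    intro a
    rw [Complex.ofReal_sum]
    refine Finset.sum_congr rfl fun b _ => ?_
    rw [normSq_mulVec, dOp_conjTranspose]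
  simp only [h1]
  simp only [← dotProduct_sum, ← Matrix.sum_mulVec]
  rw [M_mulVec h, dotProduct_smul, smul_eq_mul]
  push_cast
  ring

theorem dOp_diag_norm_sum {Ψ : (Fin N → α) → ℂ} (h : IsAntisym Ψ) :
    ∑ a : α, ∑ σ, Complex.normSq ((dOp a a *ᵥ Ψ) σ) = (N : ℝ) * ∑ σ, Complex.normSq (Ψ σ) := by
  rw [Finset.sum_comm, Finset.mul_sum]
  refine Finset.sum_congr rfl fun σ _ => ?_
  simp only [dOp_diag_apply, Complex.normSq_mul, Complex.normSq_natCast]
  rw [← Finset.sum_mul]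
  by_cases hσ : Ψ σ = 0
  · rw [hσ, Complex.normSq_zero, mul_zero, mul_zero]
  · have hinj := antisym_injective h hσ
    congr 1
    have h2 : ∀ a : α, (((Finset.univ.filter (fun k : Fin N => σ k = a)).card : ℝ)
        * ((Finset.univ.filter (fun k : Fin N => σ k = a)).card : ℝ))
        = ((Finset.univ.filter (fun k : Fin N => σ k = a)).card : ℝ) := by
      intro a
      have h3 := fiber_le_one hinj a
      have h4 : (Finset.univ.filter (fun k : Fin N => σ k = a)).card = 0 ∨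
          (Finset.univ.filter (fun k : Fin N => σ k = a)).card = 1 := by omega
      rcases h4 with h4 | h4 <;> rw [h4] <;> simp
    simp only [h2]
    rw [← Nat.cast_sum, fiber_sum]

end Vale.Agent.H96.FQH
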