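import Vale.Agent.H96.FQH.Defs

/-!
# Existence of a nonzero antisymmetric vector (a Slater determinant)
-/

open Matrix

namespace Vale.Agent.H96.FQH

theorem exists_antisym {N : ℕ} {α : Type*} [Fintype α] [DecidableEq α]
    (h : N ≤ Fintype.card α) : ∃ Ψ : (Fin N → α) → ℂ, IsAntisym Ψ ∧ Ψ ≠ 0 := by
  obtain ⟨e⟩ : Nonempty (Fin N ↪ α) :=
    Function.Embedding.nonempty_of_card_le (by simpa using h)
  refine ⟨fun σ => Matrix.det (Matrix.of fun (r c : Fin N) =>
    if σ r = e c then (1 : ℂ) else 0), ?_, ?_⟩
  · intro i j hij σ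
    have hsub : (Matrix.of fun (r c : Fin N) =>
          if (σ ∘ Equiv.swap i j) r = e c then (1 : ℂ) else 0)
        = (Matrix.of fun (r c : Fin N) =>
          if σ r = e c then (1 : ℂ) else 0).submatrix (Equiv.swap i j) id := by
      ext r c
      simp
    show Matrix.det _ = - Matrix.det _
    rw [hsub, Matrix.det_permute, Equiv.Perm.sign_swap hij]
    simp
  · intro h0
    have h2 : Matrix.det (Matrix.of fun (r c : Fin N) =>
        if e r = e c then (1 : ℂ) else 0) = 0 := congrFun h0 e
    have h1 : (Matrix.of fun (r c : Fin N) => if e r = e c then (1 : ℂ) else 0) = 1 := by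
      ext r c
      simp [Matrix.one_apply, e.injective.eq_iff]
    rw [h1, Matrix.det_one] at h2
    exact one_ne_zero h2

end Vale.Agent.H96.FQH
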