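import Vale.Agent.H96.FQH.SwapOp

/-!
# The two-particle double-commutator identity
-/

open Matrix

namespace Vale.Agent.H96.FQH

set_option linter.unusedSectionVars false

variable {α : Type*} [Fintype α] [DecidableEq α]

theorem pairId_sum_pair (f : (Fin 2 → α) → ℂ) : ∑ τ, f τ = ∑ u, ∑ v, f ![u, v] := by
  rw [← Fintype.sum_prod_type']
  refine Fintype.sum_equiv (finTwoArrowEquiv α) _ _ (fun τ => ?_)
  congr 1
  ext i
  fin_cases i <;> rfl

theorem pairId_eta (σ : Fin 2 → α) : σ = ![σ 0, σ 1] := by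
  ext i
  fin_cases i <;> rfl

theorem pairId_upd0 (s t u : α) : Function.update ![s, t] 0 u = ![u, t] := by
  ext i
  fin_cases i <;> simp

theorem pairId_upd1 (s t u : α) : Function.update ![s, t] 1 u = ![s, u] := by
  ext i
  fin_cases i <;> simp

theorem pairId_unit_mulVec (y : Fin 2) (a b : α) (ψ : (Fin 2 → α) → ℂ) (τ : Fin 2 → α) :
    (siteOp y (Matrix.single a b (1:ℂ)) *ᵥ ψ) τ =
      if a = τ y then ψ (Function.update τ y b) else 0 := by
  rw [siteOp_mulVec]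
  by_cases h : a = τ y
  · simp [Matrix.single_apply, h]
  · simp [h]

theorem pairId_core (B : Matrix (Fin 2 → α) (Fin 2 → α) ℂ) (x y : Fin 2)
    (ψ : (Fin 2 → α) → ℂ) (σ : Fin 2 → α) :
    ((∑ a : α, ∑ b : α, siteOp x (Matrix.single b a (1:ℂ)) * B *
        siteOp y (Matrix.single a b (1:ℂ))) *ᵥ ψ) σ
      = ∑ τ : Fin 2 → α, B (Function.update σ x (τ y)) τ * ψ (Function.update τ y (σ x)) := by
  have hterm : ∀ a b : α, ((siteOp x (Matrix.single b a (1:ℂ)) * B *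
        siteOp y (Matrix.single a b (1:ℂ))) *ᵥ ψ) σ =
      if b = σ x then ∑ τ : Fin 2 → α, B (Function.update σ x a) τ *
        (if a = τ y then ψ (Function.update τ y b) else 0) else 0 := by
    intro a b
    rw [← Matrix.mulVec_mulVec, ← Matrix.mulVec_mulVec, pairId_unit_mulVec]
    split_ifs with hb
    · simp only [Matrix.mulVec, dotProduct]
      refine Finset.sum_congr rfl fun τ _ => ?_
      have := pairId_unit_mulVec y a b ψ τ
      simp only [Matrix.mulVec, dotProduct] at this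
      rw [this]
    · rfl
  rw [Matrix.sum_mulVec, Finset.sum_apply]
  simp only [Matrix.sum_mulVec, Finset.sum_apply, hterm, Finset.sum_ite_eq', Finset.mem_univ,
    if_true]
  rw [Finset.sum_comm]
  refine Finset.sum_congr rfl fun τ _ => ?_
  simp only [mul_ite, mul_zero, Finset.sum_ite_eq', Finset.mem_univ, if_true]

theorem pairId_anti (B : Matrix (Fin 2 → α) (Fin 2 → α) ℂ)
    (hBF : B * (swapOp 0 1 : Matrix (Fin 2 → α) (Fin 2 → α) ℂ) = -B) (ρ : Fin 2 → α) (u v : α) :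
    B ρ ![u, v] = -B ρ ![v, u] := by
  have h := congrFun (congrFun hBF ρ) ![v, u]
  rw [Matrix.mul_apply, Matrix.neg_apply] at h
  rw [← h]
  rw [Finset.sum_eq_single ![u, v]]
  · rw [swapOp_apply, if_pos, mul_one]
    ext i
    fin_cases i <;> simp
  · intro τ _ hτ
    rw [swapOp_apply, if_neg, mul_zero]
    intro h'
    apply hτ
    ext i
    fin_cases i
    · have := congrFun h' 1
      simpa using this.symm
    · have := congrFun h' 0
      simpa using this.symm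
  · intro h
    exact absurd (Finset.mem_univ _) h

theorem pairId_case00 (B : Matrix (Fin 2 → α) (Fin 2 → α) ℂ) (c : ℂ)
    (h1 : ∀ a a' : α, ∑ b : α, B ![b, a] ![b, a'] = if a = a' then c else 0)
    (ψ : (Fin 2 → α) → ℂ) (σ : Fin 2 → α) :
    ∑ τ : Fin 2 → α, B (Function.update σ 0 (τ 0)) τ * ψ (Function.update τ 0 (σ 0)) =
      c * ψ σ := by
  rw [pairId_sum_pair]
  obtain ⟨s, t, rfl⟩ : ∃ s t, σ = ![s, t] := ⟨σ 0, σ 1, pairId_eta σ⟩
  simp only [Matrix.cons_val_zero, pairId_upd0]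
  rw [Finset.sum_comm]
  simp only [← Finset.sum_mul, h1]
  simp

theorem pairId_case11 (B : Matrix (Fin 2 → α) (Fin 2 → α) ℂ) (c : ℂ)
    (h2 : ∀ a a' : α, ∑ b : α, B ![a, b] ![a', b] = if a = a' then c else 0)
    (ψ : (Fin 2 → α) → ℂ) (σ : Fin 2 → α) :
    ∑ τ : Fin 2 → α, B (Function.update σ 1 (τ 1)) τ * ψ (Function.update τ 1 (σ 1)) =
      c * ψ σ := by
  rw [pairId_sum_pair]
  obtain ⟨s, t, rfl⟩ : ∃ s t, σ = ![s, t] := ⟨σ 0, σ 1, pairId_eta σ⟩
  simp only [Matrix.cons_val_one, Matrix.cons_val_zero, pairId_upd1]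
  simp only [← Finset.sum_mul, h2]
  simp

theorem pairId_case01 (B : Matrix (Fin 2 → α) (Fin 2 → α) ℂ) (c : ℂ)
    (hBF : B * (swapOp 0 1 : Matrix (Fin 2 → α) (Fin 2 → α) ℂ) = -B)
    (h1 : ∀ a a' : α, ∑ b : α, B ![b, a] ![b, a'] = if a = a' then c else 0)
    (ψ : (Fin 2 → α) → ℂ) (σ : Fin 2 → α) :
    ∑ τ : Fin 2 → α, B (Function.update σ 0 (τ 1)) τ * ψ (Function.update τ 1 (σ 0)) =
      -(c * ψ (σ ∘ Equiv.swap 0 1)) := by
  rw [pairId_sum_pair]
  obtain ⟨s, t, rfl⟩ : ∃ s t, σ = ![s, t] := ⟨σ 0, σ 1, pairId_eta σ⟩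
  have hsw : (![s, t] : Fin 2 → α) ∘ Equiv.swap 0 1 = ![t, s] := by
    ext i
    fin_cases i <;> simp
  rw [hsw]
  simp only [Matrix.cons_val_one, Matrix.cons_val_zero, pairId_upd0, pairId_upd1]
  have hanti : ∀ u v : α, B ![v, t] ![u, v] = -B ![v, t] ![v, u] :=
    fun u v => pairId_anti B hBF _ u v
  simp only [hanti, neg_mul, Finset.sum_neg_distrib, ← Finset.sum_mul, h1]
  simp

theorem pairId_case10 (B : Matrix (Fin 2 → α) (Fin 2 → α) ℂ) (c : ℂ)
    (hBF : B * (swapOp 0 1 : Matrix (Fin 2 → α) (Fin 2 → α) ℂ) = -B)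
    (h2 : ∀ a a' : α, ∑ b : α, B ![a, b] ![a', b] = if a = a' then c else 0)
    (ψ : (Fin 2 → α) → ℂ) (σ : Fin 2 → α) :
    ∑ τ : Fin 2 → α, B (Function.update σ 1 (τ 0)) τ * ψ (Function.update τ 0 (σ 1)) =
      -(c * ψ (σ ∘ Equiv.swap 0 1)) := by
  rw [pairId_sum_pair]
  obtain ⟨s, t, rfl⟩ : ∃ s t, σ = ![s, t] := ⟨σ 0, σ 1, pairId_eta σ⟩
  have hsw : (![s, t] : Fin 2 → α) ∘ Equiv.swap 0 1 = ![t, s] := by
    ext i
    fin_cases i <;> simp
  rw [hsw]
  simp only [Matrix.cons_val_one, Matrix.cons_val_zero, pairId_upd0, pairId_upd1]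
  rw [Finset.sum_comm]
  have hanti : ∀ u v : α, B ![s, u] ![u, v] = -B ![s, u] ![v, u] :=
    fun u v => pairId_anti B hBF _ u v
  simp only [hanti, neg_mul, Finset.sum_neg_distrib, ← Finset.sum_mul, h2]
  simp

theorem pairId_same0 (B : Matrix (Fin 2 → α) (Fin 2 → α) ℂ) (c : ℂ)
    (h1 : ∀ a a' : α, ∑ b : α, B ![b, a] ![b, a'] = if a = a' then c else 0) :
    ∑ a : α, ∑ b : α, siteOp (0 : Fin 2) (Matrix.single b a (1:ℂ)) * B *
        siteOp 0 (Matrix.single a b (1:ℂ)) = c • (1 : Matrix (Fin 2 → α) (Fin 2 → α) ℂ) := by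
  apply Matrix.mulVec_injective
  funext ψ σ
  rw [pairId_core, pairId_case00 B c h1, Matrix.smul_mulVec, Matrix.one_mulVec, Pi.smul_apply,
    smul_eq_mul]

theorem pairId_same1 (B : Matrix (Fin 2 → α) (Fin 2 → α) ℂ) (c : ℂ)
    (h2 : ∀ a a' : α, ∑ b : α, B ![a, b] ![a', b] = if a = a' then c else 0) :
    ∑ a : α, ∑ b : α, siteOp (1 : Fin 2) (Matrix.single b a (1:ℂ)) * B *
        siteOp 1 (Matrix.single a b (1:ℂ)) = c • (1 : Matrix (Fin 2 → α) (Fin 2 → α) ℂ) := by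
  apply Matrix.mulVec_injective
  funext ψ σ
  rw [pairId_core, pairId_case11 B c h2, Matrix.smul_mulVec, Matrix.one_mulVec, Pi.smul_apply,
    smul_eq_mul]

theorem pairId_cross01 (B : Matrix (Fin 2 → α) (Fin 2 → α) ℂ) (c : ℂ)
    (hBF : B * (swapOp 0 1 : Matrix (Fin 2 → α) (Fin 2 → α) ℂ) = -B)
    (h1 : ∀ a a' : α, ∑ b : α, B ![b, a] ![b, a'] = if a = a' then c else 0) :
    ∑ a : α, ∑ b : α, siteOp (0 : Fin 2) (Matrix.single b a (1:ℂ)) * B *
        siteOp 1 (Matrix.single a b (1:ℂ)) =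
      -(c • (swapOp 0 1 : Matrix (Fin 2 → α) (Fin 2 → α) ℂ)) := by
  apply Matrix.mulVec_injective
  funext ψ σ
  rw [pairId_core, pairId_case01 B c hBF h1, Matrix.neg_mulVec, Matrix.smul_mulVec, Pi.neg_apply,
    Pi.smul_apply, smul_eq_mul, swapOp_mulVec]

theorem pairId_cross10 (B : Matrix (Fin 2 → α) (Fin 2 → α) ℂ) (c : ℂ)
    (hBF : B * (swapOp 0 1 : Matrix (Fin 2 → α) (Fin 2 → α) ℂ) = -B)
    (h2 : ∀ a a' : α, ∑ b : α, B ![a, b] ![a', b] = if a = a' then c else 0) :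
    ∑ a : α, ∑ b : α, siteOp (1 : Fin 2) (Matrix.single b a (1:ℂ)) * B *
        siteOp 0 (Matrix.single a b (1:ℂ)) =
      -(c • (swapOp 0 1 : Matrix (Fin 2 → α) (Fin 2 → α) ℂ)) := by
  apply Matrix.mulVec_injective
  funext ψ σ
  rw [pairId_core, pairId_case10 B c hBF h2, Matrix.neg_mulVec, Matrix.smul_mulVec, Pi.neg_apply,
    Pi.smul_apply, smul_eq_mul, swapOp_mulVec]

theorem pairId_dOp (a b : α) : (dOp a b : Matrix (Fin 2 → α) (Fin 2 → α) ℂ) =
    siteOp 0 (Matrix.single a b (1:ℂ)) + siteOp 1 (Matrix.single a b (1:ℂ)) := by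
  unfold dOp
  rw [Fin.sum_univ_two]

theorem pairId_expand (B : Matrix (Fin 2 → α) (Fin 2 → α) ℂ) (a b : α) :
    (dOp b a : Matrix (Fin 2 → α) (Fin 2 → α) ℂ) * B * dOp a b =
      siteOp 0 (Matrix.single b a (1:ℂ)) * B * siteOp 0 (Matrix.single a b (1:ℂ)) +
      siteOp 0 (Matrix.single b a (1:ℂ)) * B * siteOp 1 (Matrix.single a b (1:ℂ)) +
      siteOp 1 (Matrix.single b a (1:ℂ)) * B * siteOp 0 (Matrix.single a b (1:ℂ)) +
      siteOp 1 (Matrix.single b a (1:ℂ)) * B * siteOp 1 (Matrix.single a b (1:ℂ)) := by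
  rw [pairId_dOp, pairId_dOp]
  simp only [add_mul, mul_add]
  abel

theorem pairId_dBd (B : Matrix (Fin 2 → α) (Fin 2 → α) ℂ) (c : ℂ)
    (hBF : B * (swapOp 0 1 : Matrix (Fin 2 → α) (Fin 2 → α) ℂ) = -B)
    (h1 : ∀ a a' : α, ∑ b : α, B ![b, a] ![b, a'] = if a = a' then c else 0)
    (h2 : ∀ a a' : α, ∑ b : α, B ![a, b] ![a', b] = if a = a' then c else 0) :
    ∑ a : α, ∑ b : α, (dOp b a : Matrix (Fin 2 → α) (Fin 2 → α) ℂ) * B * dOp a b =
      (2 * c) • ((1 : Matrix (Fin 2 → α) (Fin 2 → α) ℂ) - swapOp 0 1) := by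
  simp only [pairId_expand, Finset.sum_add_distrib]
  rw [pairId_same0 B c h1, pairId_same1 B c h2, pairId_cross01 B c hBF h1,
    pairId_cross10 B c hBF h2]
  module

theorem pairId_one_h1 (a a' : α) :
    ∑ b : α, (1 : Matrix (Fin 2 → α) (Fin 2 → α) ℂ) ![b, a] ![b, a'] =
      if a = a' then (Fintype.card α : ℂ) else 0 := by
  by_cases h : a = a'
  · subst h
    simp
  · rw [if_neg h]
    apply Finset.sum_eq_zero
    intro b _
    rw [Matrix.one_apply_ne]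
    intro h'
    apply h
    have := congrFun h' 1
    simpa using this

theorem pairId_one_h2 (a a' : α) :
    ∑ b : α, (1 : Matrix (Fin 2 → α) (Fin 2 → α) ℂ) ![a, b] ![a', b] =
      if a = a' then (Fintype.card α : ℂ) else 0 := by
  by_cases h : a = a'
  · subst h
    simp
  · rw [if_neg h]
    apply Finset.sum_eq_zero
    intro b _
    rw [Matrix.one_apply_ne]
    intro h'
    apply h
    have := congrFun h' 0
    simpa using this

theorem pairId_dd :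
    ∑ a : α, ∑ b : α, (dOp b a : Matrix (Fin 2 → α) (Fin 2 → α) ℂ) * dOp a b =
      (2 * (Fintype.card α : ℂ)) • (1 : Matrix (Fin 2 → α) (Fin 2 → α) ℂ) +
        (2 : ℂ) • (swapOp 0 1 : Matrix (Fin 2 → α) (Fin 2 → α) ℂ) := by
  have hexp : ∀ a b : α, (dOp b a : Matrix (Fin 2 → α) (Fin 2 → α) ℂ) * dOp a b =
      siteOp 0 (Matrix.single b a (1:ℂ)) * 1 * siteOp 0 (Matrix.single a b (1:ℂ)) +
      siteOp 0 (Matrix.single b a (1:ℂ)) * siteOp 1 (Matrix.single a b (1:ℂ)) +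
      siteOp 1 (Matrix.single b a (1:ℂ)) * siteOp 0 (Matrix.single a b (1:ℂ)) +
      siteOp 1 (Matrix.single b a (1:ℂ)) * 1 * siteOp 1 (Matrix.single a b (1:ℂ)) := by
    intro a b
    have := pairId_expand (1 : Matrix (Fin 2 → α) (Fin 2 → α) ℂ) a b
    simp only [mul_one] at this ⊢
    exact this
  simp only [hexp, Finset.sum_add_distrib]
  rw [pairId_same0 1 _ pairId_one_h1, pairId_same1 1 _ pairId_one_h2,
    ← swapOp_eq_sum (by decide : (0 : Fin 2) ≠ 1), ← swapOp_eq_sum (by decide : (1 : Fin 2) ≠ 0),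
    swapOp_symm 1 0]
  module

theorem pair_identity (B : Matrix (Fin 2 → α) (Fin 2 → α) ℂ) (c : ℂ)
    (hFB : (swapOp 0 1 : Matrix (Fin 2 → α) (Fin 2 → α) ℂ) * B = -B)
    (hBF : B * (swapOp 0 1 : Matrix (Fin 2 → α) (Fin 2 → α) ℂ) = -B)
    (h1 : ∀ a a' : α, ∑ b : α, B ![b, a] ![b, a'] = if a = a' then c else 0)
    (h2 : ∀ a a' : α, ∑ b : α, B ![a, b] ![a', b] = if a = a' then c else 0) :
    ∑ a : α, ∑ b : α, (dOp b a : Matrix (Fin 2 → α) (Fin 2 → α) ℂ) * (B * dOp a b - dOp a b * B) =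
      (2 * c) • ((1 : Matrix (Fin 2 → α) (Fin 2 → α) ℂ) - swapOp 0 1) -
        (2 * ((Fintype.card α : ℂ) - 1)) • B := by
  simp only [mul_sub, ← mul_assoc, Finset.sum_sub_distrib, ← Finset.sum_mul]
  rw [pairId_dBd B c hBF h1 h2, pairId_dd, add_mul, smul_mul_assoc, smul_mul_assoc, one_mul, hFB]
  module

end Vale.Agent.H96.FQH
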