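import Vale.Agent.H96.FQH.Defs

/-!
# Schur's lemma for the spin matrices
-/

open Matrix

namespace Vale.Agent.H96.FQH

namespace SchurAux

/-- The weight of the raising operator does not vanish inside the ladder. -/
theorem spinW_ne_zero (Q k : ℕ) (hk : k + 1 ≤ Q) : spinW Q (k + 1) ≠ 0 := by
  intro h0
  have h := spinW_mul_self (d := Q) (a := k + 1) (by omega)
  rw [h0, mul_zero] at h
  have e : ((Q : ℂ) + 1 - ((k + 1 : ℕ) : ℂ)) = ((Q - k : ℕ) : ℂ) := by
    rw [Nat.cast_sub (by omega : k ≤ Q)]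
    push_cast
    ring
  rw [e] at h
  have h1 : ((k + 1 : ℕ) : ℂ) ≠ 0 := Nat.cast_ne_zero.mpr (by omega)
  have h2 : ((Q - k : ℕ) : ℂ) ≠ 0 := Nat.cast_ne_zero.mpr (by omega)
  exact (mul_ne_zero h1 h2) h.symm

/-- A matrix commuting with the diagonal matrix of distinct entries is diagonal. -/
theorem offdiag_zero (Q : ℕ) (T : Matrix (Fin (Q + 1)) (Fin (Q + 1)) ℂ)
    (hz : T * spinZ Q = spinZ Q * T) (i j : Fin (Q + 1)) (hij : i ≠ j) : T i j = 0 := by
  have h := congrFun (congrFun hz i) j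
  unfold spinZ at h
  rw [Matrix.mul_diagonal, Matrix.diagonal_mul] at h
  have hne : (((i : ℕ) : ℂ) - ((j : ℕ) : ℂ)) ≠ 0 := by
    intro h0
    have h1 : ((i : ℕ) : ℂ) = ((j : ℕ) : ℂ) := sub_eq_zero.1 h0
    exact hij (Fin.ext (Nat.cast_injective h1))
  have h2 : T i j * (((i : ℕ) : ℂ) - ((j : ℕ) : ℂ)) = 0 := by linear_combination h
  rcases mul_eq_zero.1 h2 with h3 | h3
  · exact h3
  · exact absurd h3 hne

/-- Neighbouring diagonal entries agree. -/
theorem diag_step (Q : ℕ) (T : Matrix (Fin (Q + 1)) (Fin (Q + 1)) ℂ)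
    (hd : ∀ i j : Fin (Q + 1), i ≠ j → T i j = 0)
    (hp : T * spinPlus Q = spinPlus Q * T) (k : ℕ) (hk : k + 1 < Q + 1) :
    T (Fin.mk k (by omega)) (Fin.mk k (by omega)) = T (Fin.mk (k + 1) hk) (Fin.mk (k + 1) hk) := by
  have h := congrFun (congrFun hp (Fin.mk k (by omega))) (Fin.mk (k + 1) hk)
  rw [Matrix.mul_apply, Matrix.mul_apply] at h
  rw [Finset.sum_eq_single (Fin.mk k (by omega) : Fin (Q + 1))
      (fun l _ hl => by rw [hd _ l (fun e => hl e.symm), zero_mul])
      (fun hl => absurd (Finset.mem_univ _) hl),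
    Finset.sum_eq_single (Fin.mk (k + 1) hk : Fin (Q + 1))
      (fun l _ hl => by rw [hd l _ hl, mul_zero])
      (fun hl => absurd (Finset.mem_univ _) hl)] at h
  have hw : spinPlus Q (Fin.mk k (by omega)) (Fin.mk (k + 1) hk) = spinW Q (k + 1) := by
    rw [spinPlus_apply']
    simp
  rw [hw] at h
  have hne := spinW_ne_zero Q k (by omega)
  have h2 : (T (Fin.mk k (by omega)) (Fin.mk k (by omega))
      - T (Fin.mk (k + 1) hk) (Fin.mk (k + 1) hk)) * spinW Q (k + 1) = 0 := by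
    linear_combination h
  rcases mul_eq_zero.1 h2 with h3 | h3
  · exact sub_eq_zero.1 h3
  · exact absurd h3 hne

end SchurAux

/-- A matrix commuting with `S^3` and `S^+` is a multiple of the identity. -/
theorem spin_schur (Q : ℕ) (T : Matrix (Fin (Q + 1)) (Fin (Q + 1)) ℂ)
    (hz : T * spinZ Q = spinZ Q * T) (hp : T * spinPlus Q = spinPlus Q * T) :
    T = (Matrix.trace T / ((Q : ℂ) + 1)) • (1 : Matrix (Fin (Q + 1)) (Fin (Q + 1)) ℂ) := by
  have hd := SchurAux.offdiag_zero Q T hz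
  obtain ⟨t, ht⟩ : ∃ t : ℂ, t = T (Fin.mk 0 (Nat.succ_pos Q)) (Fin.mk 0 (Nat.succ_pos Q)) :=
    ⟨_, rfl⟩
  have hall : ∀ (k : ℕ) (hk : k < Q + 1), T (Fin.mk k hk) (Fin.mk k hk) = t := by
    intro k
    induction k with
    | zero => intro hk; exact ht.symm
    | succ k ih =>
      intro hk
      rw [← SchurAux.diag_step Q T hd hp k hk]
      exact ih (by omega)
  have hT : T = t • (1 : Matrix (Fin (Q + 1)) (Fin (Q + 1)) ℂ) := by
    ext i j
    by_cases hij : i = j
    · subst hij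
      rw [Matrix.smul_apply, Matrix.one_apply_eq, smul_eq_mul, mul_one]
      exact hall i.val i.isLt
    · rw [Matrix.smul_apply, Matrix.one_apply_ne hij, smul_eq_mul, mul_zero]
      exact hd i j hij
  have htr : Matrix.trace T = t * ((Q : ℂ) + 1) := by
    calc Matrix.trace T = Matrix.trace (t • (1 : Matrix (Fin (Q + 1)) (Fin (Q + 1)) ℂ)) :=
          congrArg Matrix.trace hT
      _ = t * ((Q : ℂ) + 1) := by
          rw [Matrix.trace_smul, Matrix.trace_one, Fintype.card_fin, smul_eq_mul]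
          push_cast
          ring
  have hQ : ((Q : ℂ) + 1) ≠ 0 := Nat.cast_add_one_ne_zero Q
  have e : Matrix.trace T / ((Q : ℂ) + 1) = t := by
    rw [htr]
    field_simp
  rw [e]
  exact hT

end Vale.Agent.H96.FQH
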