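import Vale.Agent.H96.FQH.PairProj
import Vale.Agent.H96.FQH.PairSwap
import Vale.Agent.H96.FQH.Schur

/-!
# Tracing out one factor of the pair projection gives a multiple of the identity
-/

open Matrix

namespace Vale.Agent.H96.FQH

/-- Sums over pair configurations as double sums. -/
theorem sum_pair_eq {Q : ℕ} (f : Pair Q → ℂ) :
    ∑ σ : Pair Q, f σ = ∑ k : Fin (Q + 1), ∑ l : Fin (Q + 1), f ![k, l] := by
  rw [← Fintype.sum_prod_type' (f := fun k l => f ![k, l])]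
  exact (Fintype.sum_equiv (finTwoArrowEquiv (Fin (Q + 1))).symm
    (fun p : Fin (Q + 1) × Fin (Q + 1) => f ![p.1, p.2]) f (fun p => rfl)).symm

/-- Tracing out the second factor of a pair matrix. -/
def tr2 {Q : ℕ} (B : Matrix (Pair Q) (Pair Q) ℂ) : Matrix (Fin (Q + 1)) (Fin (Q + 1)) ℂ :=
  Matrix.of fun a a' => ∑ b : Fin (Q + 1), B ![a, b] ![a', b]

theorem tr2_apply {Q : ℕ} (B : Matrix (Pair Q) (Pair Q) ℂ) (a a' : Fin (Q + 1)) :
    tr2 B a a' = ∑ b : Fin (Q + 1), B ![a, b] ![a', b] := rfl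

theorem tr2_add {Q : ℕ} (B C : Matrix (Pair Q) (Pair Q) ℂ) : tr2 (B + C) = tr2 B + tr2 C := by
  ext a a'
  simp only [tr2_apply, Matrix.add_apply, Finset.sum_add_distrib]

theorem siteOp_zero_pair {Q : ℕ} (X : Matrix (Fin (Q + 1)) (Fin (Q + 1)) ℂ)
    (a b c d : Fin (Q + 1)) :
    (siteOp (0 : Fin 2) X : Matrix (Pair Q) (Pair Q) ℂ) ![a, b] ![c, d] =
      if b = d then X a c else 0 := by
  rw [siteOp_apply]
  have hiff : (∀ y : Fin 2, y ≠ 0 → (![a, b] : Pair Q) y = (![c, d] : Pair Q) y) ↔ b = d := by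
    constructor
    · intro h
      simpa using h 1 (by decide)
    · intro h y hy
      fin_cases y
      · exact absurd rfl hy
      · simpa using h
  simp only [hiff]
  rfl

theorem siteOp_one_pair {Q : ℕ} (X : Matrix (Fin (Q + 1)) (Fin (Q + 1)) ℂ)
    (a b c d : Fin (Q + 1)) :
    (siteOp (1 : Fin 2) X : Matrix (Pair Q) (Pair Q) ℂ) ![a, b] ![c, d] =
      if a = c then X b d else 0 := by
  rw [siteOp_apply]
  have hiff : (∀ y : Fin 2, y ≠ 1 → (![a, b] : Pair Q) y = (![c, d] : Pair Q) y) ↔ a = c := by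
    constructor
    · intro h
      simpa using h 0 (by decide)
    · intro h y hy
      fin_cases y
      · simpa using h
      · exact absurd rfl hy
  simp only [hiff]
  rfl

theorem tr2_siteOp_zero_mul {Q : ℕ} (X : Matrix (Fin (Q + 1)) (Fin (Q + 1)) ℂ)
    (B : Matrix (Pair Q) (Pair Q) ℂ) :
    tr2 (siteOp (0 : Fin 2) X * B) = X * tr2 B := by
  ext a a'
  simp only [tr2_apply, Matrix.mul_apply, sum_pair_eq, siteOp_zero_pair, ite_mul, zero_mul,
    Finset.sum_ite_eq, Finset.mem_univ, if_true, Finset.mul_sum]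
  exact Finset.sum_comm

theorem tr2_mul_siteOp_zero {Q : ℕ} (X : Matrix (Fin (Q + 1)) (Fin (Q + 1)) ℂ)
    (B : Matrix (Pair Q) (Pair Q) ℂ) :
    tr2 (B * siteOp (0 : Fin 2) X) = tr2 B * X := by
  ext a a'
  simp only [tr2_apply, Matrix.mul_apply, sum_pair_eq, siteOp_zero_pair, mul_ite, mul_zero,
    Finset.sum_ite_eq', Finset.mem_univ, if_true, Finset.sum_mul]
  exact Finset.sum_comm

theorem sum_sum_ite_eq_left {Q : ℕ} (a : Fin (Q + 1)) (g : Fin (Q + 1) → Fin (Q + 1) → ℂ) :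
    ∑ k, ∑ l, (if a = k then g k l else 0) = ∑ l, g a l := by
  rw [Finset.sum_comm]
  simp only [Finset.sum_ite_eq, Finset.mem_univ, if_true]

theorem sum_sum_ite_eq_right {Q : ℕ} (a : Fin (Q + 1)) (g : Fin (Q + 1) → Fin (Q + 1) → ℂ) :
    ∑ k, ∑ l, (if k = a then g k l else 0) = ∑ l, g a l := by
  rw [Finset.sum_comm]
  simp only [Finset.sum_ite_eq', Finset.mem_univ, if_true]

theorem tr2_siteOp_one_mul {Q : ℕ} (X : Matrix (Fin (Q + 1)) (Fin (Q + 1)) ℂ)
    (B : Matrix (Pair Q) (Pair Q) ℂ) :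
    tr2 (siteOp (1 : Fin 2) X * B) = tr2 (B * siteOp (1 : Fin 2) X) := by
  ext a a'
  simp only [tr2_apply, Matrix.mul_apply, sum_pair_eq, siteOp_one_pair, ite_mul, zero_mul,
    mul_ite, mul_zero, sum_sum_ite_eq_left, sum_sum_ite_eq_right]
  rw [Finset.sum_comm]
  refine Finset.sum_congr rfl fun b _ => Finset.sum_congr rfl fun l _ => ?_
  ring

theorem tr2_pairProj_comm {Q : ℕ} (X : Matrix (Fin (Q + 1)) (Fin (Q + 1)) ℂ)
    (h : (siteOp (0 : Fin 2) X + siteOp (1 : Fin 2) X) * pairProj Q =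
      pairProj Q * (siteOp (0 : Fin 2) X + siteOp (1 : Fin 2) X)) :
    tr2 (pairProj Q) * X = X * tr2 (pairProj Q) := by
  have h2 := congrArg tr2 h
  rw [add_mul, mul_add, tr2_add, tr2_add, tr2_siteOp_zero_mul, tr2_mul_siteOp_zero,
    tr2_siteOp_one_mul] at h2
  exact (add_right_cancel h2).symm

theorem tr2_pairProj {Q : ℕ} (hQ : 1 ≤ Q) :
    tr2 (pairProj Q) =
      ((2 * (Q : ℂ) - 1) / ((Q : ℂ) + 1)) • (1 : Matrix (Fin (Q + 1)) (Fin (Q + 1)) ℂ) := by
  have hz := tr2_pairProj_comm (spinZ Q) (pairProj_comm_z hQ)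
  have hp := tr2_pairProj_comm (spinPlus Q) (pairProj_comm_p hQ)
  have h := spin_schur Q (tr2 (pairProj Q)) hz hp
  have htr : Matrix.trace (tr2 (pairProj Q)) = 2 * (Q : ℂ) - 1 := by
    rw [← pairProj_trace hQ]
    simp only [Matrix.trace, Matrix.diag_apply, tr2_apply, sum_pair_eq]
  rw [htr] at h
  exact h

theorem pairProj_trace_snd {Q : ℕ} (hQ : 1 ≤ Q) (a a' : Fin (Q + 1)) :
    ∑ b : Fin (Q + 1), pairProj Q ![a, b] ![a', b] =
      if a = a' then (2 * (Q : ℂ) - 1) / ((Q : ℂ) + 1) else 0 := by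
  have h := congrFun (congrFun (tr2_pairProj hQ) a) a'
  rw [tr2_apply] at h
  rw [h, Matrix.smul_apply, Matrix.one_apply]
  split_ifs <;> simp

theorem swap_pair {Q : ℕ} (a b : Fin (Q + 1)) :
    (![a, b] : Pair Q) ∘ Equiv.swap (0 : Fin 2) 1 = ![b, a] := by
  funext i
  fin_cases i
  · simp
  · simp

theorem pairProj_swap_left {Q : ℕ} (σ τ : Pair Q) :
    pairProj Q (σ ∘ Equiv.swap (0 : Fin 2) 1) τ = -pairProj Q σ τ := by
  have h := congrFun (congrFun (pairSwap_mul_pairProj Q) σ) τ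
  rw [Matrix.neg_apply] at h
  rw [← h]
  have h2 : ((swapOp 0 1 : Matrix (Pair Q) (Pair Q) ℂ) * pairProj Q) σ τ =
      ((swapOp 0 1 : Matrix (Pair Q) (Pair Q) ℂ) *ᵥ (fun ρ => pairProj Q ρ τ)) σ := rfl
  rw [h2, swapOp_mulVec]

theorem pairProj_swap_right {Q : ℕ} (σ τ : Pair Q) :
    pairProj Q σ (τ ∘ Equiv.swap (0 : Fin 2) 1) = -pairProj Q σ τ := by
  have hH := pairProj_isHermitian Q
  have h1 : pairProj Q σ (τ ∘ Equiv.swap (0 : Fin 2) 1) =
      star (pairProj Q (τ ∘ Equiv.swap (0 : Fin 2) 1) σ) := (hH.apply _ _).symm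
  have h2 : pairProj Q σ τ = star (pairProj Q τ σ) := (hH.apply _ _).symm
  rw [h1, pairProj_swap_left, h2, star_neg]

theorem pairProj_trace_fst {Q : ℕ} (hQ : 1 ≤ Q) (a a' : Fin (Q + 1)) :
    ∑ b : Fin (Q + 1), pairProj Q ![b, a] ![b, a'] =
      if a = a' then (2 * (Q : ℂ) - 1) / ((Q : ℂ) + 1) else 0 := by
  rw [← pairProj_trace_snd hQ a a']
  refine Finset.sum_congr rfl fun b _ => ?_
  rw [← swap_pair a b, ← swap_pair a' b, pairProj_swap_left, pairProj_swap_right, neg_neg]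

end Vale.Agent.H96.FQH
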