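import Vale.Agent.H96.FQH.SumRulePair
import Vale.Agent.H96.FQH.PairId
import Vale.Agent.H96.FQH.TraceOut
import Vale.Agent.H96.FQH.DOp

/-!
# The sum rule for the Hamiltonian in antisymmetric vectors
-/

open Matrix

namespace Vale.Agent.H96.FQH

/-- The commutator with an exchange operator has zero expectation in antisymmetric vectors. -/
theorem antisym_comm_swap_expect {N : ℕ} {α : Type*} [Fintype α] [DecidableEq α]
    {Ψ : (Fin N → α) → ℂ} (h : IsAntisym Ψ) (A : Matrix (Fin N → α) (Fin N → α) ℂ)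
    {k l : Fin N} (hkl : k ≠ l) :
    star Ψ ⬝ᵥ ((A * swapOp k l - swapOp k l * A) *ᵥ Ψ) = 0 := by
  have hF : (swapOp k l : Matrix (Fin N → α) (Fin N → α) ℂ) *ᵥ Ψ = -Ψ :=
    (isAntisym_iff Ψ).1 h k l hkl
  have hH : (swapOp k l : Matrix (Fin N → α) (Fin N → α) ℂ)ᴴ = swapOp k l :=
    swapOp_isHermitian k l
  have h2 : star Ψ ᵥ* (swapOp k l : Matrix (Fin N → α) (Fin N → α) ℂ) = -star Ψ := by
    have h3 := Matrix.star_mulVec (swapOp k l : Matrix (Fin N → α) (Fin N → α) ℂ) Ψ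
    rw [hH, hF, star_neg] at h3
    exact h3.symm
  rw [Matrix.sub_mulVec, dotProduct_sub, ← Matrix.mulVec_mulVec, ← Matrix.mulVec_mulVec, hF,
    Matrix.mulVec_neg, dotProduct_neg,
    Matrix.dotProduct_mulVec (star Ψ) (swapOp k l : Matrix (Fin N → α) (Fin N → α) ℂ), h2,
    neg_dotProduct]
  ring

theorem count_lt_pairs (N : ℕ) :
    ∑ i : Fin N, ∑ j : Fin N, (if i < j then (1 : ℂ) else 0) = (N : ℂ) * ((N : ℂ) - 1) / 2 := by
  have h1 : ∑ i : Fin N, ∑ j : Fin N, (if i < j then (1 : ℂ) else 0)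
      = ∑ i : Fin N, ∑ j : Fin N, (if j < i then (1 : ℂ) else 0) := Finset.sum_comm
  have hpt : ∀ i j : Fin N, ((if i < j then (1 : ℂ) else 0) + (if j < i then (1 : ℂ) else 0)
      + (if i = j then (1 : ℂ) else 0)) = 1 := by
    intro i j
    rcases lt_trichotomy i j with hlt | heq | hgt
    · rw [if_pos hlt, if_neg (not_lt_of_gt hlt), if_neg (ne_of_lt hlt)]
      ring
    · subst heq
      rw [if_neg (lt_irrefl i), if_pos rfl]
      ring
    · rw [if_neg (not_lt_of_gt hgt), if_pos hgt, if_neg (ne_of_gt hgt)]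
      ring
  have h2 : ∑ i : Fin N, ∑ j : Fin N, ((if i < j then (1 : ℂ) else 0)
      + (if j < i then (1 : ℂ) else 0) + (if i = j then (1 : ℂ) else 0)) = (N : ℂ) * N := by
    simp only [hpt]
    simp
  have h3 : ∑ i : Fin N, ∑ j : Fin N, (if i = j then (1 : ℂ) else 0) = N := by simp
  simp only [Finset.sum_add_distrib] at h2
  rw [← h1, h3] at h2
  linear_combination (1 / 2 : ℂ) * h2

namespace SumRuleAux

variable {N : ℕ} {α : Type*} [Fintype α] [DecidableEq α]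

/-- The expectation functional of a vector, as a linear map on operators. -/
noncomputable def expect (Ψ : (Fin N → α) → ℂ) :
    Matrix (Fin N → α) (Fin N → α) ℂ →ₗ[ℂ] ℂ where
  toFun M := star Ψ ⬝ᵥ (M *ᵥ Ψ)
  map_add' M M' := by rw [Matrix.add_mulVec, dotProduct_add]
  map_smul' c M := by
    rw [Matrix.smul_mulVec, dotProduct_smul]
    rfl

theorem expect_apply (Ψ : (Fin N → α) → ℂ) (M : Matrix (Fin N → α) (Fin N → α) ℂ) :
    expect Ψ M = star Ψ ⬝ᵥ (M *ᵥ Ψ) := rfl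

/-- The double commutator with the one-body operators, as a linear map on operators. -/
noncomputable def dcomm :
    Matrix (Fin N → α) (Fin N → α) ℂ →ₗ[ℂ] Matrix (Fin N → α) (Fin N → α) ℂ where
  toFun H := ∑ a : α, ∑ b : α, dOp b a * (H * dOp a b - dOp a b * H)
  map_add' H H' := by
    rw [← Finset.sum_add_distrib]
    refine Finset.sum_congr rfl (fun a _ => ?_)
    rw [← Finset.sum_add_distrib]
    refine Finset.sum_congr rfl (fun b _ => ?_)
    noncomm_ring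
  map_smul' c H := by
    simp only [RingHom.id_apply]
    rw [Finset.smul_sum]
    refine Finset.sum_congr rfl (fun a _ => ?_)
    rw [Finset.smul_sum]
    refine Finset.sum_congr rfl (fun b _ => ?_)
    rw [smul_mul_assoc, mul_smul_comm, ← smul_sub, mul_smul_comm]

theorem dcomm_apply (H : Matrix (Fin N → α) (Fin N → α) ℂ) :
    dcomm H = ∑ a : α, ∑ b : α, dOp b a * (H * dOp a b - dOp a b * H) := rfl

theorem summand_eq (Ψ : (Fin N → α) → ℂ) (H : Matrix (Fin N → α) (Fin N → α) ℂ) (a b : α) :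
    star (dOp a b *ᵥ Ψ) ⬝ᵥ (H *ᵥ (dOp a b *ᵥ Ψ)) -
        star (dOp a b *ᵥ Ψ) ⬝ᵥ (dOp a b *ᵥ (H *ᵥ Ψ))
      = expect Ψ (dOp b a * (H * dOp a b - dOp a b * H)) := by
  rw [expect_apply, Matrix.star_mulVec, dOp_conjTranspose, ← Matrix.dotProduct_mulVec,
    ← Matrix.dotProduct_mulVec, mul_sub, Matrix.sub_mulVec, dotProduct_sub]
  simp only [Matrix.mulVec_mulVec]

theorem sum_summand_eq (Ψ : (Fin N → α) → ℂ) (H : Matrix (Fin N → α) (Fin N → α) ℂ) :
    ∑ a : α, ∑ b : α, (star (dOp a b *ᵥ Ψ) ⬝ᵥ (H *ᵥ (dOp a b *ᵥ Ψ)) -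
        star (dOp a b *ᵥ Ψ) ⬝ᵥ (dOp a b *ᵥ (H *ᵥ Ψ)))
      = expect Ψ (dcomm H) := by
  rw [dcomm_apply, map_sum]
  refine Finset.sum_congr rfl (fun a _ => ?_)
  rw [map_sum]
  refine Finset.sum_congr rfl (fun b _ => ?_)
  exact summand_eq Ψ H a b

/-- The expectation of the double commutator of one pair term in an antisymmetric vector. -/
theorem pair_term {Q : ℕ} (hQ : 1 ≤ Q) {Ψ : (Fin N → Fin (Q + 1)) → ℂ} (h : IsAntisym Ψ)
    {i j : Fin N} (hij : i ≠ j) :
    expect Ψ (dcomm (pairOp i j (pairProj Q)))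
      = 4 * ((2 * (Q : ℂ) - 1) / ((Q : ℂ) + 1)) * (star Ψ ⬝ᵥ Ψ)
        - (2 * (Q : ℂ)) * expect Ψ (pairOp i j (pairProj Q)) := by
  have hR := pair_identity (pairProj Q) ((2 * (Q : ℂ) - 1) / ((Q : ℂ) + 1))
    (pairSwap_mul_pairProj Q) (pairProj_mul_pairSwap Q)
    (pairProj_trace_fst hQ) (pairProj_trace_snd hQ)
  rw [dcomm_apply, sumrule_pair hij (pairProj Q) _ hR, map_add, map_sum]
  have hcomm : ∀ k : Fin N, expect Ψ (if k ≠ i ∧ k ≠ j then
      (pairOp i j (pairProj Q) * (swapOp k i + swapOp k j)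
        - (swapOp k i + swapOp k j) * pairOp i j (pairProj Q)) else 0) = 0 := by
    intro k
    by_cases hk : k ≠ i ∧ k ≠ j
    · rw [if_pos hk]
      have e : pairOp i j (pairProj Q) * (swapOp k i + swapOp k j)
            - (swapOp k i + swapOp k j) * pairOp i j (pairProj Q)
          = (pairOp i j (pairProj Q) * swapOp k i - swapOp k i * pairOp i j (pairProj Q))
            + (pairOp i j (pairProj Q) * swapOp k j - swapOp k j * pairOp i j (pairProj Q)) := by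
        rw [mul_add, add_mul]
        abel
      rw [e, map_add, expect_apply, expect_apply, antisym_comm_swap_expect h _ hk.1,
        antisym_comm_swap_expect h _ hk.2, add_zero]
    · rw [if_neg hk, map_zero]
  rw [Finset.sum_eq_zero (fun k _ => hcomm k), add_zero]
  rw [pairOp_sub, pairOp_smul, pairOp_smul, pairOp_sub, pairOp_one hij, pairOp_swapOp hij,
    map_sub, map_smul, map_smul, map_sub]
  have h1 : expect Ψ (1 : Matrix (Fin N → Fin (Q + 1)) (Fin N → Fin (Q + 1)) ℂ)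
      = star Ψ ⬝ᵥ Ψ := by
    rw [expect_apply, Matrix.one_mulVec]
  have h2 : expect Ψ (swapOp i j : Matrix (Fin N → Fin (Q + 1)) (Fin N → Fin (Q + 1)) ℂ)
      = -(star Ψ ⬝ᵥ Ψ) := by
    rw [expect_apply, (isAntisym_iff Ψ).1 h i j hij, dotProduct_neg]
  rw [h1, h2, Fintype.card_fin]
  simp only [smul_eq_mul]
  push_cast
  ring

end SumRuleAux

theorem sumrule {N Q : ℕ} (hQ : 1 ≤ Q) {Ψ : (Fin N → Fin (Q + 1)) → ℂ} (h : IsAntisym Ψ) :
    ∑ a : Fin (Q + 1), ∑ b : Fin (Q + 1),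
        (star (dOp a b *ᵥ Ψ) ⬝ᵥ (hamL N Q *ᵥ (dOp a b *ᵥ Ψ)) -
          star (dOp a b *ᵥ Ψ) ⬝ᵥ (dOp a b *ᵥ (hamL N Q *ᵥ Ψ))) =
      (2 * ((2 * (Q : ℂ) - 1) / ((Q : ℂ) + 1)) * (N : ℂ) * ((N : ℂ) - 1)) * (star Ψ ⬝ᵥ Ψ) -
        (2 * (Q : ℂ)) * (star Ψ ⬝ᵥ (hamL N Q *ᵥ Ψ)) := by
  rw [SumRuleAux.sum_summand_eq Ψ (hamL N Q)]
  have hE : star Ψ ⬝ᵥ (hamL N Q *ᵥ Ψ)
      = ∑ i : Fin N, ∑ j : Fin N,
          (if i < j then SumRuleAux.expect Ψ (pairOp i j (pairProj Q)) else 0) := by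
    rw [← SumRuleAux.expect_apply]
    unfold hamL
    rw [map_sum]
    refine Finset.sum_congr rfl (fun i _ => ?_)
    rw [map_sum]
    refine Finset.sum_congr rfl (fun j _ => ?_)
    by_cases hij : i < j
    · rw [if_pos hij, if_pos hij]
    · rw [if_neg hij, if_neg hij, map_zero]
  have hD : SumRuleAux.expect Ψ (SumRuleAux.dcomm (hamL N Q))
      = ∑ i : Fin N, ∑ j : Fin N,
          (if i < j then (4 * ((2 * (Q : ℂ) - 1) / ((Q : ℂ) + 1)) * (star Ψ ⬝ᵥ Ψ)
            - (2 * (Q : ℂ)) * SumRuleAux.expect Ψ (pairOp i j (pairProj Q))) else 0) := by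
    unfold hamL
    rw [map_sum, map_sum]
    refine Finset.sum_congr rfl (fun i _ => ?_)
    rw [map_sum, map_sum]
    refine Finset.sum_congr rfl (fun j _ => ?_)
    by_cases hij : i < j
    · rw [if_pos hij, if_pos hij]
      exact SumRuleAux.pair_term hQ h (ne_of_lt hij)
    · rw [if_neg hij, if_neg hij, map_zero, map_zero]
  have hpt : ∀ i j : Fin N,
      (if i < j then (4 * ((2 * (Q : ℂ) - 1) / ((Q : ℂ) + 1)) * (star Ψ ⬝ᵥ Ψ)
            - (2 * (Q : ℂ)) * SumRuleAux.expect Ψ (pairOp i j (pairProj Q))) else 0)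
        = (4 * ((2 * (Q : ℂ) - 1) / ((Q : ℂ) + 1)) * (star Ψ ⬝ᵥ Ψ))
            * (if i < j then (1 : ℂ) else 0)
          - (2 * (Q : ℂ))
            * (if i < j then SumRuleAux.expect Ψ (pairOp i j (pairProj Q)) else 0) := by
    intro i j
    by_cases hij : i < j
    · rw [if_pos hij, if_pos hij, if_pos hij]
      ring
    · rw [if_neg hij, if_neg hij, if_neg hij]
      ring
  rw [hD, hE]
  simp only [hpt, Finset.sum_sub_distrib, ← Finset.mul_sum]
  rw [count_lt_pairs]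
  ring

end Vale.Agent.H96.FQH
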