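import Vale.Agent.H96.FQH.PairProj
import Vale.Agent.H96.FQH.PairOpAlg
import Vale.Agent.H96.FQH.DOp

/-!
# Weight sectors: the Hamiltonian conserves the total weight, `dOp a b` shifts it
-/

open Matrix

namespace Vale.Agent.H96.FQH

theorem wtProj_antisym {N Q : ℕ} (m : ℕ) {Ψ : (Fin N → Fin (Q + 1)) → ℂ} (h : IsAntisym Ψ) :
    IsAntisym (wtProj m Ψ) := by
  intro i j hij σ
  unfold wtProj
  have hsum : ∑ k, ((σ ∘ Equiv.swap i j) k : ℕ) = ∑ k, (σ k : ℕ) :=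
    Equiv.sum_comp (Equiv.swap i j) (fun k => (σ k : ℕ))
  rw [hsum]
  split_ifs with hm
  · exact h i j hij σ
  · simp

/-- The total weight of a configuration is at most `N * Q`. -/
theorem weight_le {N Q : ℕ} (σ : Fin N → Fin (Q + 1)) : ∑ i, (σ i : ℕ) ≤ N * Q := by
  calc ∑ i, (σ i : ℕ) ≤ ∑ _i : Fin N, Q :=
        Finset.sum_le_sum (fun i _ => Nat.lt_succ_iff.mp (σ i).isLt)
    _ = N * Q := by simp

theorem sum_wtProj {N Q : ℕ} (Ψ : (Fin N → Fin (Q + 1)) → ℂ) :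
    ∑ m ∈ Finset.range (N * Q + 1), wtProj m Ψ = Ψ := by
  funext σ
  rw [Finset.sum_apply]
  unfold wtProj
  rw [Finset.sum_ite_eq, if_pos]
  rw [Finset.mem_range]
  exact Nat.lt_succ_of_le (weight_le σ)

/-- Splitting a sum over all sites into the values at two distinct sites and the rest. -/
theorem weight_split {N : ℕ} {i j : Fin N} (hij : i ≠ j) (f : Fin N → ℕ) :
    ∑ k, f k = f i + f j + ∑ k ∈ (Finset.univ.erase i).erase j, f k := by
  have hj : j ∈ (Finset.univ : Finset (Fin N)).erase i :=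
    Finset.mem_erase.mpr ⟨hij.symm, Finset.mem_univ _⟩
  rw [← Finset.add_sum_erase Finset.univ f (Finset.mem_univ i),
    ← Finset.add_sum_erase (Finset.univ.erase i) f hj, add_assoc]

theorem hamL_weight {N Q : ℕ} (hQ : 1 ≤ Q) {σ τ : Fin N → Fin (Q + 1)} (h : hamL N Q σ τ ≠ 0) :
    ∑ i, (σ i : ℕ) = ∑ i, (τ i : ℕ) := by
  unfold hamL at h
  rw [Matrix.sum_apply] at h
  obtain ⟨i, _, hi⟩ := Finset.exists_ne_zero_of_sum_ne_zero h
  rw [Matrix.sum_apply] at hi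
  obtain ⟨j, _, hj⟩ := Finset.exists_ne_zero_of_sum_ne_zero hi
  by_cases hij : i < j
  · rw [if_pos hij, pairOp_apply] at hj
    by_cases hk : ∀ k, k ≠ i → k ≠ j → σ k = τ k
    · rw [if_pos hk] at hj
      have hw := pairProj_weight hQ hj
      have hne : i ≠ j := ne_of_lt hij
      have hw' : (σ i : ℕ) + (σ j : ℕ) = (τ i : ℕ) + (τ j : ℕ) := hw
      rw [weight_split hne (fun k => (σ k : ℕ)), weight_split hne (fun k => (τ k : ℕ))]
      have hrest : ∑ k ∈ (Finset.univ.erase i).erase j, (σ k : ℕ) =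
          ∑ k ∈ (Finset.univ.erase i).erase j, (τ k : ℕ) := by
        refine Finset.sum_congr rfl fun k hk' => ?_
        rw [Finset.mem_erase, Finset.mem_erase] at hk'
        rw [hk k hk'.2.1 hk'.1]
      show (σ i : ℕ) + (σ j : ℕ) + _ = (τ i : ℕ) + (τ j : ℕ) + _
      rw [hw', hrest]
    · rw [if_neg hk] at hj; exact absurd rfl hj
  · rw [if_neg hij] at hj; exact absurd rfl hj

theorem hamL_wtProj {N Q : ℕ} (hQ : 1 ≤ Q) (m : ℕ) (Ψ : (Fin N → Fin (Q + 1)) → ℂ) :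
    hamL N Q *ᵥ wtProj m Ψ = wtProj m (hamL N Q *ᵥ Ψ) := by
  funext σ
  show ∑ τ, hamL N Q σ τ * wtProj m Ψ τ = wtProj m (hamL N Q *ᵥ Ψ) σ
  by_cases hm : ∑ i, (σ i : ℕ) = m
  · have e : wtProj m (hamL N Q *ᵥ Ψ) σ = ∑ τ, hamL N Q σ τ * Ψ τ := by
      show (if ∑ i, (σ i : ℕ) = m then (hamL N Q *ᵥ Ψ) σ else 0) = _
      rw [if_pos hm]; rfl
    rw [e]
    refine Finset.sum_congr rfl fun τ _ => ?_
    by_cases hz : hamL N Q σ τ = 0
    · rw [hz, zero_mul, zero_mul]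
    · have hw := hamL_weight hQ hz
      show hamL N Q σ τ * (if ∑ i, (τ i : ℕ) = m then Ψ τ else 0) = _
      rw [if_pos (hw.symm.trans hm)]
  · have e : wtProj m (hamL N Q *ᵥ Ψ) σ = 0 := by
      show (if ∑ i, (σ i : ℕ) = m then (hamL N Q *ᵥ Ψ) σ else 0) = _
      rw [if_neg hm]
    rw [e]
    refine Finset.sum_eq_zero fun τ _ => ?_
    by_cases hz : hamL N Q σ τ = 0
    · rw [hz, zero_mul]
    · have hw := hamL_weight hQ hz
      show hamL N Q σ τ * (if ∑ i, (τ i : ℕ) = m then Ψ τ else 0) = _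
      rw [if_neg (fun h' => hm (hw.trans h')), mul_zero]

theorem dOp_weight {N Q : ℕ} {a b : Fin (Q + 1)} {m : ℕ} {Ψ : (Fin N → Fin (Q + 1)) → ℂ}
    (hΨ : ∀ σ, Ψ σ ≠ 0 → ∑ i, (σ i : ℕ) = m) {σ : Fin N → Fin (Q + 1)}
    (hσ : (dOp a b *ᵥ Ψ) σ ≠ 0) : ∑ i, (σ i : ℕ) + (b : ℕ) = m + (a : ℕ) := by
  rw [dOp_mulVec] at hσ
  obtain ⟨k, _, hk⟩ := Finset.exists_ne_zero_of_sum_ne_zero hσ
  by_cases hka : σ k = a
  · rw [if_pos hka] at hk
    have hm := hΨ _ hk
    rw [← hm, ← hka]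
    rw [← Finset.add_sum_erase Finset.univ (fun i => (σ i : ℕ)) (Finset.mem_univ k),
      ← Finset.add_sum_erase Finset.univ
        (fun i => (Function.update σ k b i : ℕ)) (Finset.mem_univ k)]
    have hrest : ∑ x ∈ Finset.univ.erase k, (Function.update σ k b x : ℕ) =
        ∑ x ∈ Finset.univ.erase k, (σ x : ℕ) := by
      refine Finset.sum_congr rfl fun x hx => ?_
      rw [Finset.mem_erase] at hx
      rw [Function.update_of_ne hx.1]
    show (σ k : ℕ) + _ + (b : ℕ) = (Function.update σ k b k : ℕ) + _ + (σ k : ℕ)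
    rw [hrest, Function.update_self]
    ring
  · rw [if_neg hka] at hk; exact absurd rfl hk

end Vale.Agent.H96.FQH
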