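import Vale.Agent.H96.FQH.Invariance
import Vale.Agent.H96.FQH.NormSums
import Vale.Agent.H96.FQH.SumRule
import Vale.Agent.H96.FQH.Weights
import Vale.Agent.H96.FQH.Ground
import Vale.Agent.H96.FQH.Slater

/-!
# A uniform upper bound on the spectral gap of the spherical `V_1` Hamiltonian

For `2 ≤ N ≤ Q` the two lowest eigenvalues `E_0 ≤ E_1` (with multiplicity) of `H_{N,Q}` on
antisymmetric vectors satisfy `E_1 - E_0 ≤ 2 c (N-1) / (Q+1-N)` with `c = (2Q-1)/(Q+1)`.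
-/

open Matrix

namespace Vale.Agent.H96.FQH

section basics

variable {n : Type*} [Fintype n] [DecidableEq n]

/-- Squared norm of a vector. -/
noncomputable def nrm (u : n → ℂ) : ℝ := ∑ σ, Complex.normSq (u σ)

theorem nrm_eq (u : n → ℂ) : ((nrm u : ℝ) : ℂ) = star u ⬝ᵥ u := by
  unfold nrm dotProduct
  push_cast
  refine Finset.sum_congr rfl fun σ _ => ?_
  rw [Pi.star_apply, Complex.normSq_eq_conj_mul_self]
  rfl

theorem nrm_nonneg (u : n → ℂ) : 0 ≤ nrm u :=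
  Finset.sum_nonneg fun σ _ => Complex.normSq_nonneg _

theorem nrm_zero : nrm (0 : n → ℂ) = 0 := by
  simp [nrm]

theorem nrm_pos {u : n → ℂ} (hu : u ≠ 0) : 0 < nrm u := by
  have hne : ∃ σ, u σ ≠ 0 := by
    by_contra hcon
    apply hu
    funext σ
    by_contra h2
    exact hcon ⟨σ, h2⟩
  obtain ⟨σ, hσ⟩ := hne
  have h1 : 0 < Complex.normSq (u σ) := Complex.normSq_pos.mpr hσ
  have h2 : Complex.normSq (u σ) ≤ nrm u :=
    Finset.single_le_sum (f := fun σ => Complex.normSq (u σ))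
      (fun τ _ => Complex.normSq_nonneg _) (Finset.mem_univ σ)
  linarith

theorem nrm_eq_zero {u : n → ℂ} (h : nrm u = 0) : u = 0 := by
  by_contra hu
  have := nrm_pos hu
  linarith

/-- The expectation of a real multiple of a vector against itself. -/
theorem re_star_dot_smul (E : ℝ) (u : n → ℂ) : (star u ⬝ᵥ ((E : ℂ) • u)).re = E * nrm u := by
  rw [dotProduct_smul, ← nrm_eq, smul_eq_mul, ← Complex.ofReal_mul, Complex.ofReal_re]

/-- The vectors orthogonal to a given vector. -/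
def orthSub (Ψ : n → ℂ) : Submodule ℂ (n → ℂ) where
  carrier := {χ | star Ψ ⬝ᵥ χ = 0}
  add_mem' := by
    intro a b ha hb
    simp only [Set.mem_setOf_eq] at ha hb ⊢
    rw [dotProduct_add, ha, hb, add_zero]
  zero_mem' := by simp
  smul_mem' := by
    intro c a ha
    simp only [Set.mem_setOf_eq] at ha ⊢
    rw [dotProduct_smul, ha, smul_zero]

theorem mem_orthSub (Ψ χ : n → ℂ) : χ ∈ orthSub Ψ ↔ star Ψ ⬝ᵥ χ = 0 := Iff.rfl

/-- A Hermitian matrix preserves the orthogonal complement of an eigenvector with a real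
eigenvalue. -/
theorem orthSub_invariant {T : Matrix n n ℂ} (hT : T.IsHermitian) {Ψ : n → ℂ} {E : ℝ}
    (hΨ : T *ᵥ Ψ = (E : ℂ) • Ψ) {χ : n → ℂ} (hχ : χ ∈ orthSub Ψ) : T *ᵥ χ ∈ orthSub Ψ := by
  rw [mem_orthSub] at hχ ⊢
  have h1 : star Ψ ⬝ᵥ (T *ᵥ χ) = star (T *ᵥ Ψ) ⬝ᵥ χ := by
    rw [Matrix.star_mulVec, hT.eq, Matrix.dotProduct_mulVec]
  rw [h1, hΨ, star_smul, smul_dotProduct, hχ, smul_zero]

end basics

section antisym

variable {N : ℕ} {α : Type*} [Fintype α] [DecidableEq α]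

/-- The subspace of antisymmetric vectors. -/
def antisymSub (N : ℕ) (α : Type*) [Fintype α] [DecidableEq α] :
    Submodule ℂ ((Fin N → α) → ℂ) where
  carrier := {Ψ | IsAntisym Ψ}
  add_mem' := by
    intro a b ha hb i j hij σ
    simp only [Pi.add_apply]
    rw [ha i j hij σ, hb i j hij σ]
    ring
  zero_mem' := by
    intro i j _ σ
    simp
  smul_mem' := by
    intro c a ha i j hij σ
    simp only [Pi.smul_apply, smul_eq_mul]
    rw [ha i j hij σ]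
    ring

theorem mem_antisymSub (Ψ : (Fin N → α) → ℂ) : Ψ ∈ antisymSub N α ↔ IsAntisym Ψ := Iff.rfl

end antisym

theorem wtProj_smul {N Q : ℕ} (m : ℕ) (c : ℂ) (Ψ : (Fin N → Fin (Q + 1)) → ℂ) :
    wtProj m (c • Ψ) = c • wtProj m Ψ := by
  funext σ
  simp only [wtProj, Pi.smul_apply, smul_eq_mul]
  split_ifs <;> simp

theorem wtProj_support {N Q : ℕ} (m : ℕ) (Ψ : (Fin N → Fin (Q + 1)) → ℂ)
    (σ : Fin N → Fin (Q + 1)) (h : wtProj m Ψ σ ≠ 0) : ∑ i, (σ i : ℕ) = m := by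
  unfold wtProj at h
  by_contra hne
  rw [if_neg hne] at h
  exact h rfl

/-- A vector supported on weight `m` is orthogonal to its image under `dOp a b`, `a ≠ b`. -/
theorem dOp_orth {N Q : ℕ} {a b : Fin (Q + 1)} (hab : a ≠ b) {m : ℕ}
    {Ψ : (Fin N → Fin (Q + 1)) → ℂ} (hΨ : ∀ σ, Ψ σ ≠ 0 → ∑ i, (σ i : ℕ) = m) :
    star Ψ ⬝ᵥ (dOp a b *ᵥ Ψ) = 0 := by
  unfold dotProduct
  refine Finset.sum_eq_zero fun σ _ => ?_
  by_cases h1 : Ψ σ = 0
  · rw [Pi.star_apply, h1, star_zero, zero_mul]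
  · by_cases h2 : (dOp a b *ᵥ Ψ) σ = 0
    · rw [h2, mul_zero]
    · exfalso
      have e1 := hΨ σ h1
      have e2 := dOp_weight hΨ h2
      apply hab
      apply Fin.ext
      omega

/-- The general bound: for `2 ≤ N ≤ Q` the gap between the two lowest eigenvalues of `H_{N,Q}`
on antisymmetric vectors is at most `2 c (N-1)/(Q+1-N)`, `c = (2Q-1)/(Q+1)`. -/
theorem gap_upper {N Q : ℕ} (hN : 2 ≤ N) (hNQ : N ≤ Q) :
    ∃ E0 E1 : ℝ, ∃ Ψ0 Ψ1 : (Fin N → Fin (Q + 1)) → ℂ,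
      IsAntisym Ψ0 ∧ Ψ0 ≠ 0 ∧ hamL N Q *ᵥ Ψ0 = (E0 : ℂ) • Ψ0 ∧
      (∀ χ : (Fin N → Fin (Q + 1)) → ℂ, IsAntisym χ →
        E0 * ∑ σ, Complex.normSq (χ σ) ≤ (star χ ⬝ᵥ (hamL N Q *ᵥ χ)).re) ∧
      IsAntisym Ψ1 ∧ Ψ1 ≠ 0 ∧ star Ψ0 ⬝ᵥ Ψ1 = 0 ∧ hamL N Q *ᵥ Ψ1 = (E1 : ℂ) • Ψ1 ∧
      (∀ χ : (Fin N → Fin (Q + 1)) → ℂ, IsAntisym χ → star Ψ0 ⬝ᵥ χ = 0 →
        E1 * ∑ σ, Complex.normSq (χ σ) ≤ (star χ ⬝ᵥ (hamL N Q *ᵥ χ)).re) ∧
      E1 - E0 ≤ 2 * ((2 * (Q : ℝ) - 1) / ((Q : ℝ) + 1)) * ((N : ℝ) - 1) /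
        ((Q : ℝ) + 1 - (N : ℝ)) := by
  have hQ : 1 ≤ Q := by omega
  have hH := hamL_isHermitian N Q
  -- the ground state on the antisymmetric subspace
  have hne : ∃ v ∈ antisymSub N (Fin (Q + 1)), v ≠ 0 := by
    obtain ⟨Ψ, h1, h2⟩ := exists_antisym (N := N) (α := Fin (Q + 1))
      (by rw [Fintype.card_fin]; omega)
    exact ⟨Ψ, h1, h2⟩
  obtain ⟨E, v, hvW, hv0, hHv, hmin⟩ := exists_ground (hamL N Q) hH (antisymSub N (Fin (Q + 1)))
    (fun v hv => hamL_antisym N Q hv) hne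
  -- a nonzero weight component
  have hm : ∃ m, wtProj m v ≠ 0 := by
    by_contra hcon
    apply hv0
    rw [← sum_wtProj v]
    refine Finset.sum_eq_zero fun m _ => ?_
    by_contra h2
    exact hcon ⟨m, h2⟩
  obtain ⟨m, hm⟩ := hm
  set Ψ := wtProj m v with hΨdef
  have hΨa : IsAntisym Ψ := wtProj_antisym m hvW
  have hHΨ : hamL N Q *ᵥ Ψ = (E : ℂ) • Ψ := by
    rw [hΨdef, hamL_wtProj hQ, hHv, wtProj_smul]
  have hΨsupp : ∀ σ, Ψ σ ≠ 0 → ∑ i, (σ i : ℕ) = m := fun σ h => wtProj_support m v σ h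
  have hΨpos : 0 < nrm Ψ := nrm_pos hm
  -- E ≥ 0
  have hE : 0 ≤ E := by
    have h1 := hamL_nonneg hQ Ψ
    rw [hHΨ, re_star_dot_smul] at h1
    by_contra hneg
    have hneg' : E < 0 := not_le.mp hneg
    nlinarith
  -- the trial vectors and abbreviations
  set Φ : Fin (Q + 1) → Fin (Q + 1) → (Fin N → Fin (Q + 1)) → ℂ := fun a b => dOp a b *ᵥ Ψ
    with hΦdef
  set R : ((Fin N → Fin (Q + 1)) → ℂ) → ℝ := fun u => (star u ⬝ᵥ (hamL N Q *ᵥ u)).re with hRdef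
  set c : ℝ := (2 * (Q : ℝ) - 1) / ((Q : ℝ) + 1) with hcdef
  have hΦa : ∀ a b, IsAntisym (Φ a b) := fun a b => dOp_antisym a b hΨa
  -- the sum rule in real form
  have hsr : ∑ a : Fin (Q + 1), ∑ b : Fin (Q + 1), (R (Φ a b) - E * nrm (Φ a b)) =
      2 * c * (N : ℝ) * ((N : ℝ) - 1) * nrm Ψ - 2 * (Q : ℝ) * (E * nrm Ψ) := by
    have h1 := sumrule hQ hΨa
    have h2 := congrArg Complex.re h1
    rw [hHΨ] at h2
    have h3 : ∀ a b : Fin (Q + 1),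
        (star (dOp a b *ᵥ Ψ) ⬝ᵥ (hamL N Q *ᵥ (dOp a b *ᵥ Ψ)) -
          star (dOp a b *ᵥ Ψ) ⬝ᵥ (dOp a b *ᵥ ((E : ℂ) • Ψ))).re = R (Φ a b) - E * nrm (Φ a b) := by
      intro a b
      rw [Matrix.mulVec_smul, Complex.sub_re, re_star_dot_smul]
    rw [Complex.re_sum] at h2
    simp only [Complex.re_sum, h3] at h2
    rw [h2, ← nrm_eq, dotProduct_smul, ← nrm_eq, smul_eq_mul]
    have h4 : (2 * ((2 * (Q : ℂ) - 1) / ((Q : ℂ) + 1)) * (N : ℂ) * ((N : ℂ) - 1)) * ((nrm Ψ : ℝ) : ℂ) -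
        (2 * (Q : ℂ)) * ((E : ℂ) * ((nrm Ψ : ℝ) : ℂ)) =
        ((2 * c * (N : ℝ) * ((N : ℝ) - 1) * nrm Ψ - 2 * (Q : ℝ) * (E * nrm Ψ) : ℝ) : ℂ) := by
      rw [hcdef]; push_cast; ring
    rw [h4, Complex.ofReal_re]
  -- norm sums
  have hn1 : ∑ a : Fin (Q + 1), ∑ b : Fin (Q + 1), nrm (Φ a b) =
      (N : ℝ) * ((Q : ℝ) + 2 - (N : ℝ)) * nrm Ψ := by
    have := dOp_norm_sum hΨa
    rw [Fintype.card_fin] at this
    unfold nrm
    rw [this]
    push_cast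
    ring
  have hn2 : ∑ a : Fin (Q + 1), nrm (Φ a a) = (N : ℝ) * nrm Ψ := dOp_diag_norm_sum hΨa
  -- off-diagonal sums
  have hsplit : ∀ f : Fin (Q + 1) → Fin (Q + 1) → ℝ,
      ∑ a : Fin (Q + 1), ∑ b : Fin (Q + 1), (if a ≠ b then f a b else 0) =
        ∑ a : Fin (Q + 1), ∑ b : Fin (Q + 1), f a b - ∑ a : Fin (Q + 1), f a a := by
    intro f
    rw [← Finset.sum_sub_distrib]
    refine Finset.sum_congr rfl fun a _ => ?_
    have h1 : ∀ b : Fin (Q + 1),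
        (if a ≠ b then f a b else 0) = f a b - (if a = b then f a b else 0) := by
      intro b
      by_cases h : a = b <;> simp [h]
    simp only [h1]
    rw [Finset.sum_sub_distrib, Finset.sum_ite_eq]
    simp
  set κ : ℝ := 2 * c * ((N : ℝ) - 1) / ((Q : ℝ) + 1 - (N : ℝ)) with hκdef
  have hNr : (2 : ℝ) ≤ (N : ℝ) := by exact_mod_cast hN
  have hNQr : (N : ℝ) ≤ (Q : ℝ) := by exact_mod_cast hNQ
  have hden : 0 < (Q : ℝ) + 1 - (N : ℝ) := by linarith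
  have hκ : κ * ((Q : ℝ) + 1 - (N : ℝ)) = 2 * c * ((N : ℝ) - 1) := by
    rw [hκdef]; field_simp
  have hc0 : 0 ≤ c := by
    rw [hcdef]
    apply div_nonneg <;> linarith
  -- the off-diagonal sum of `R - (E + κ) nrm` is nonpositive
  set t : Fin (Q + 1) → Fin (Q + 1) → ℝ := fun a b => R (Φ a b) - (E + κ) * nrm (Φ a b)
    with htdef
  have hdiag : ∀ a : Fin (Q + 1), 0 ≤ R (Φ a a) - E * nrm (Φ a a) := by
    intro a
    have := hmin (Φ a a) (hΦa a a)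
    simp only [hRdef, nrm]
    linarith
  have htsum : ∑ a : Fin (Q + 1), ∑ b : Fin (Q + 1), (if a ≠ b then t a b else 0) ≤ 0 := by
    have e1 : ∑ a : Fin (Q + 1), ∑ b : Fin (Q + 1), (if a ≠ b then t a b else 0) =
        ∑ a : Fin (Q + 1), ∑ b : Fin (Q + 1), (if a ≠ b then (R (Φ a b) - E * nrm (Φ a b)) else 0)
          - κ * ∑ a : Fin (Q + 1), ∑ b : Fin (Q + 1), (if a ≠ b then nrm (Φ a b) else 0) := by
      rw [Finset.mul_sum, ← Finset.sum_sub_distrib]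
      refine Finset.sum_congr rfl fun a _ => ?_
      rw [Finset.mul_sum, ← Finset.sum_sub_distrib]
      refine Finset.sum_congr rfl fun b _ => ?_
      split_ifs
      · simp only [htdef]; ring
      · simp
    rw [e1, hsplit, hsplit, hsr, hn1, hn2]
    have e2 : 0 ≤ ∑ a : Fin (Q + 1), (R (Φ a a) - E * nrm (Φ a a)) :=
      Finset.sum_nonneg fun a _ => hdiag a
    have e3 : κ * ((N : ℝ) * ((Q : ℝ) + 2 - (N : ℝ)) * nrm Ψ - (N : ℝ) * nrm Ψ) =
        2 * c * ((N : ℝ) - 1) * (N : ℝ) * nrm Ψ := by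
      rw [← hκ]; ring
    have e4 : 0 ≤ 2 * (Q : ℝ) * (E * nrm Ψ) := by positivity
    linarith
  -- pick a good pair
  have hpick : ∃ a b : Fin (Q + 1), a ≠ b ∧ Φ a b ≠ 0 ∧ t a b ≤ 0 := by
    by_contra hcon
    have hcon : ∀ a b : Fin (Q + 1), a ≠ b → Φ a b ≠ 0 → 0 < t a b := by
      intro a b hab h0
      by_contra hle
      exact hcon ⟨a, b, hab, h0, not_lt.mp hle⟩
    have hnn : ∀ a b : Fin (Q + 1), 0 ≤ (if a ≠ b then t a b else 0) := by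
      intro a b
      split_ifs with hab
      · by_cases h0 : Φ a b = 0
        · simp only [htdef, hRdef, h0, nrm_zero]
          simp
        · exact (hcon a b hab h0).le
      · exact le_rfl
    have hz : ∑ a : Fin (Q + 1), ∑ b : Fin (Q + 1), (if a ≠ b then t a b else 0) = 0 :=
      le_antisymm htsum (Finset.sum_nonneg fun a _ => Finset.sum_nonneg fun b _ => hnn a b)
    have hz1 : ∀ a : Fin (Q + 1), ∑ b : Fin (Q + 1), (if a ≠ b then t a b else 0) = 0 := by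
      intro a
      have hh := (Finset.sum_eq_zero_iff_of_nonneg (s := (Finset.univ : Finset (Fin (Q + 1))))
        (f := fun a => ∑ b : Fin (Q + 1), (if a ≠ b then t a b else 0))
        (fun a _ => Finset.sum_nonneg fun b _ => hnn a b)).mp hz
      exact hh a (Finset.mem_univ a)
    have hz2 : ∀ a b : Fin (Q + 1), (if a ≠ b then t a b else 0) = 0 := by
      intro a b
      have hh := (Finset.sum_eq_zero_iff_of_nonneg (s := (Finset.univ : Finset (Fin (Q + 1))))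
        (f := fun b => (if a ≠ b then t a b else 0)) (fun b _ => hnn a b)).mp (hz1 a)
      exact hh b (Finset.mem_univ b)
    have hall : ∀ a b : Fin (Q + 1), a ≠ b → Φ a b = 0 := by
      intro a b hab
      by_contra h0
      have h1 := hcon a b hab h0
      have h2 := hz2 a b
      rw [if_pos hab] at h2
      linarith
    have hoff : ∑ a : Fin (Q + 1), ∑ b : Fin (Q + 1), (if a ≠ b then nrm (Φ a b) else 0) = 0 := by
      refine Finset.sum_eq_zero fun a _ => Finset.sum_eq_zero fun b _ => ?_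
      split_ifs with hab
      · rw [hall a b hab, nrm_zero]
      · rfl
    rw [hsplit, hn1, hn2] at hoff
    have : 0 < (N : ℝ) * ((Q : ℝ) + 1 - (N : ℝ)) * nrm Ψ := by positivity
    nlinarith
  obtain ⟨a, b, hab, hΦ0, htab⟩ := hpick
  have hΦorth : star Ψ ⬝ᵥ Φ a b = 0 := dOp_orth hab hΨsupp
  -- the second eigenvector
  have hne' : ∃ u ∈ antisymSub N (Fin (Q + 1)) ⊓ orthSub Ψ, u ≠ 0 :=
    ⟨Φ a b, ⟨hΦa a b, hΦorth⟩, hΦ0⟩
  obtain ⟨E1, Ψ1, hΨ1W, hΨ10, hHΨ1, hmin1⟩ := exists_ground (hamL N Q) hH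
    (antisymSub N (Fin (Q + 1)) ⊓ orthSub Ψ)
    (fun u hu => ⟨hamL_antisym N Q hu.1, orthSub_invariant hH hHΨ hu.2⟩) hne'
  refine ⟨E, E1, Ψ, Ψ1, hΨa, hm, hHΨ, fun χ hχ => hmin χ hχ, hΨ1W.1, hΨ10, hΨ1W.2, hHΨ1,
    fun χ hχ hχ0 => hmin1 χ ⟨hχ, hχ0⟩, ?_⟩
  have h1 := hmin1 (Φ a b) ⟨hΦa a b, hΦorth⟩
  have h2 : 0 < nrm (Φ a b) := nrm_pos hΦ0
  have h3 : E1 * nrm (Φ a b) ≤ (E + κ) * nrm (Φ a b) := by
    have h5 : R (Φ a b) - (E + κ) * nrm (Φ a b) ≤ 0 := htab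
    have h6 : E1 * nrm (Φ a b) ≤ R (Φ a b) := h1
    linarith
  have h4 : E1 ≤ E + κ := le_of_mul_le_mul_right h3 h2
  rw [hκdef] at h4
  linarith

end Vale.Agent.H96.FQH
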