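import Vale.Agent.H96.FQH.PairOpAlg

/-!
# `pairOp` of one-factor operators, and commutation with operators on other factors
-/

open Matrix

namespace Vale.Agent.H96.FQH

set_option linter.unusedSectionVars false

variable {N : ℕ} {α : Type*} [Fintype α] [DecidableEq α]

theorem pairOp_siteOp_zero {i j : Fin N} (hij : i ≠ j) (X : Matrix α α ℂ) :
    pairOp i j (siteOp (0 : Fin 2) X) = siteOp i X := by
  ext σ τ
  rw [pairOp_apply, siteOp_apply, siteOp_apply]
  by_cases h : ∀ y, y ≠ i → σ y = τ y
  · have h1 : ∀ k, k ≠ i → k ≠ j → σ k = τ k := fun k hk _ => h k hk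
    have h2 : ∀ y : Fin 2, y ≠ 0 → (![σ i, σ j] : Fin 2 → α) y = ![τ i, τ j] y := by
      intro y hy
      fin_cases y
      · exact absurd rfl hy
      · simpa using h j (Ne.symm hij)
    rw [if_pos h1, if_pos h2, if_pos h]
    simp
  · rw [if_neg h]
    by_cases h1 : ∀ k, k ≠ i → k ≠ j → σ k = τ k
    · rw [if_pos h1]
      have h2 : ¬ ∀ y : Fin 2, y ≠ 0 → (![σ i, σ j] : Fin 2 → α) y = ![τ i, τ j] y := by
        intro hc
        apply h
        intro y hy
        by_cases hyj : y = j
        · subst hyj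
          simpa using hc 1 (by decide)
        · exact h1 y hy hyj
      rw [if_neg h2]
    · rw [if_neg h1]

theorem pairOp_siteOp_one {i j : Fin N} (hij : i ≠ j) (X : Matrix α α ℂ) :
    pairOp i j (siteOp (1 : Fin 2) X) = siteOp j X := by
  ext σ τ
  rw [pairOp_apply, siteOp_apply, siteOp_apply]
  by_cases h : ∀ y, y ≠ j → σ y = τ y
  · have h1 : ∀ k, k ≠ i → k ≠ j → σ k = τ k := fun k _ hk => h k hk
    have h2 : ∀ y : Fin 2, y ≠ 1 → (![σ i, σ j] : Fin 2 → α) y = ![τ i, τ j] y := by
      intro y hy
      fin_cases y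
      · simpa using h i hij
      · exact absurd rfl hy
    rw [if_pos h1, if_pos h2, if_pos h]
    simp
  · rw [if_neg h]
    by_cases h1 : ∀ k, k ≠ i → k ≠ j → σ k = τ k
    · rw [if_pos h1]
      have h2 : ¬ ∀ y : Fin 2, y ≠ 1 → (![σ i, σ j] : Fin 2 → α) y = ![τ i, τ j] y := by
        intro hc
        apply h
        intro y hy
        by_cases hyi : y = i
        · subst hyi
          simpa using hc 0 (by decide)
        · exact h1 y hyi hy
      rw [if_neg h2]
    · rw [if_neg h1]

/-- For equal indices `pairOp i i B` is a one-factor operator. -/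
theorem pairOp_self (i : Fin N) (B : Matrix (Fin 2 → α) (Fin 2 → α) ℂ) :
    pairOp i i B = siteOp i (Matrix.of fun x y => B ![x, x] ![y, y]) := by
  ext σ τ
  rw [pairOp_apply, siteOp_apply]
  by_cases h : ∀ y, y ≠ i → σ y = τ y
  · have h1 : ∀ k, k ≠ i → k ≠ i → σ k = τ k := fun k hk _ => h k hk
    rw [if_pos h1, if_pos h]
    rfl
  · have h1 : ¬ ∀ k, k ≠ i → k ≠ i → σ k = τ k := fun hc => h (fun y hy => hc y hy hy)
    rw [if_neg h1, if_neg h]

theorem siteOp_mul_pairOp_comm {i j k : Fin N} (hki : k ≠ i) (hkj : k ≠ j) (X : Matrix α α ℂ)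
    (B : Matrix (Fin 2 → α) (Fin 2 → α) ℂ) :
    siteOp k X * pairOp i j B = pairOp i j B * siteOp k X := by
  by_cases hij : i = j
  · subst hij
    rw [pairOp_self]
    exact siteOp_comm hki _ _
  · apply Matrix.mulVec_injective
    funext ψ σ
    have hik : i ≠ k := fun h => hki h.symm
    have hjk : j ≠ k := fun h => hkj h.symm
    rw [← Matrix.mulVec_mulVec, ← Matrix.mulVec_mulVec, siteOp_mulVec, pairOp_mulVec hij]
    simp only [siteOp_mulVec, pairOp_mulVec hij, Function.update_of_ne hik,
      Function.update_of_ne hjk, Function.update_of_ne hki, Function.update_of_ne hkj,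
      Finset.mul_sum]
    rw [Finset.sum_comm]
    refine Finset.sum_congr rfl fun p _ => Finset.sum_congr rfl fun l _ => ?_
    have e : Function.update (Function.update (Function.update σ k l) i (p 0)) j (p 1)
        = Function.update (Function.update (Function.update σ i (p 0)) j (p 1)) k l := by
      rw [Function.update_comm hjk, Function.update_comm hik]
    rw [e]
    ring

/-- `pairOp i j` of the two-particle `dOp` is the part of the `N`-particle `dOp` on `i, j`. -/
theorem pairOp_dOp {i j : Fin N} (hij : i ≠ j) (a b : α) :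
    pairOp i j (dOp a b : Matrix (Fin 2 → α) (Fin 2 → α) ℂ) =
      siteOp i (Matrix.single a b (1 : ℂ)) + siteOp j (Matrix.single a b (1 : ℂ)) := by
  have e : (dOp a b : Matrix (Fin 2 → α) (Fin 2 → α) ℂ)
      = siteOp (0 : Fin 2) (Matrix.single a b (1 : ℂ))
        + siteOp (1 : Fin 2) (Matrix.single a b (1 : ℂ)) := by
    unfold dOp
    rw [Fin.sum_univ_two]
  rw [e, pairOp_add, pairOp_siteOp_zero hij, pairOp_siteOp_one hij]

end Vale.Agent.H96.FQH
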