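import Vale.Agent.H96.FQH.Defs

/-!
# The pair operators `L^±`, `L^3` and the highest-weight vector form a ladder
-/

open Matrix

namespace Vale.Agent.H96.FQH

/-- A diagonal one-site matrix acts diagonally on configurations. -/
theorem siteOp_diagonal {V : Type*} [Fintype V] [DecidableEq V] {α : Type*} [Fintype α]
    [DecidableEq α] (x : V) (f : α → ℂ) :
    siteOp x (Matrix.diagonal f) = Matrix.diagonal fun σ : V → α => f (σ x) := by
  ext σ τ
  simp only [siteOp_apply, Matrix.diagonal_apply]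
  by_cases h : σ = τ
  · subst h
    simp
  · rw [if_neg h]
    split_ifs with h1 h2
    · exfalso
      apply h
      funext y
      by_cases hy : y = x
      · subst hy
        exact h2
      · exact h1 y hy
    · rfl
    · rfl

theorem pairLm_conjTranspose (Q : ℕ) : (pairLm Q)ᴴ = pairLp Q := by
  unfold pairLm pairLp
  rw [Matrix.conjTranspose_add, siteOp_conjTranspose, siteOp_conjTranspose,
    spinMinus_conjTranspose]

theorem pairLz_isHermitian (Q : ℕ) : (pairLz Q).IsHermitian := by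
  unfold pairLz Matrix.IsHermitian
  rw [Matrix.conjTranspose_add, siteOp_conjTranspose, siteOp_conjTranspose,
    (spinZ_isHermitian Q).eq]

theorem pairLz_eq_diagonal (Q : ℕ) :
    pairLz Q = Matrix.diagonal fun σ : Pair Q => (Q : ℂ) - ((σ 0 : ℕ) : ℂ) - ((σ 1 : ℕ) : ℂ) := by
  unfold pairLz spinZ
  rw [siteOp_diagonal, siteOp_diagonal, Matrix.diagonal_add]
  congr 1
  funext σ
  ring

theorem pair_comm_pm (Q : ℕ) :
    pairLp Q * pairLm Q - pairLm Q * pairLp Q = (2 : ℂ) • pairLz Q := by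
  have h0 := site_comm_plus_minus Q (0 : Fin 2)
  have h1 := site_comm_plus_minus Q (1 : Fin 2)
  have h01 : siteOp (0 : Fin 2) (spinPlus Q) * siteOp 1 (spinMinus Q)
      = siteOp 1 (spinMinus Q) * siteOp 0 (spinPlus Q) := siteOp_comm (by decide) _ _
  have h10 : siteOp (1 : Fin 2) (spinPlus Q) * siteOp 0 (spinMinus Q)
      = siteOp 0 (spinMinus Q) * siteOp 1 (spinPlus Q) := siteOp_comm (by decide) _ _
  unfold pairLp pairLm pairLz
  rw [add_mul, mul_add, mul_add, add_mul, mul_add, mul_add, h0, h1, h01, h10, smul_add]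
  abel

theorem pair_comm_zm (Q : ℕ) : pairLz Q * pairLm Q - pairLm Q * pairLz Q = -pairLm Q := by
  have h0 := site_comm_z_minus Q (0 : Fin 2)
  have h1 := site_comm_z_minus Q (1 : Fin 2)
  have h01 : siteOp (0 : Fin 2) (spinZ Q) * siteOp 1 (spinMinus Q)
      = siteOp 1 (spinMinus Q) * siteOp 0 (spinZ Q) := siteOp_comm (by decide) _ _
  have h10 : siteOp (1 : Fin 2) (spinZ Q) * siteOp 0 (spinMinus Q)
      = siteOp 0 (spinMinus Q) * siteOp 1 (spinZ Q) := siteOp_comm (by decide) _ _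
  unfold pairLm pairLz
  rw [add_mul, mul_add, mul_add, add_mul, mul_add, mul_add, h0, h1, h01, h10]
  abel

theorem pairW0_ne_zero {Q : ℕ} (hQ : 1 ≤ Q) : pairW0 Q ≠ 0 := by
  intro h
  have h1 := congrFun h ![(0 : Fin (Q + 1)), ⟨1, by omega⟩]
  simp [pairW0] at h1

theorem pairLp_mulVec_pairW0 (Q : ℕ) : pairLp Q *ᵥ pairW0 Q = 0 := by
  funext σ
  unfold pairLp
  rw [Matrix.add_mulVec, Pi.add_apply, siteOp_mulVec, siteOp_mulVec, ← Finset.sum_add_distrib]
  apply Finset.sum_eq_zero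
  intro k _
  have e0 : (Function.update σ 0 k) 1 = σ 1 := Function.update_of_ne (by decide) _ _
  have e1 : (Function.update σ 1 k) 0 = σ 0 := Function.update_of_ne (by decide) _ _
  simp only [spinPlus_apply', pairW0, Function.update_self, e0, e1]
  split_ifs <;> first | (exfalso; omega) | ring

theorem pairLz_mulVec_pairW0 {Q : ℕ} (hQ : 1 ≤ Q) :
    pairLz Q *ᵥ pairW0 Q = (((2 * Q - 2 : ℕ) : ℂ) / 2) • pairW0 Q := by
  funext σ
  have hc : ((2 * Q - 2 : ℕ) : ℂ) = 2 * (Q : ℂ) - 2 := by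
    rw [Nat.cast_sub (by omega)]
    push_cast
    ring
  rw [pairLz_eq_diagonal, Matrix.mulVec_diagonal, Pi.smul_apply, smul_eq_mul, hc]
  unfold pairW0
  split_ifs with h1 h2
  · rw [h1.1, h1.2]
    push_cast
    ring
  · rw [h2.1, h2.2]
    push_cast
    ring
  · simp

theorem pair_isLadder {Q : ℕ} (hQ : 1 ≤ Q) :
    IsLadder (pairLp Q) (pairLm Q) (pairLz Q) (pairW0 Q) (2 * Q - 2) :=
  ⟨pairLm_conjTranspose Q, pairLz_isHermitian Q, pair_comm_pm Q, pair_comm_zm Q,
    pairLp_mulVec_pairW0 Q, pairLz_mulVec_pairW0 hQ, pairW0_ne_zero hQ⟩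

end Vale.Agent.H96.FQH
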