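import Vale.Agent.H96.FQH.HW2b
import Vale.Agent.H96.FQH.PairRel

/-!
# The pair projection `P^{(1)}`: instantiation of the ladder results
-/

open Matrix

namespace Vale.Agent.H96.FQH

theorem pairProj_eq {Q : ℕ} (hQ : 1 ≤ Q) :
    pairProj Q = hwProj (pairLm Q) (pairW0 Q) (2 * Q - 2 + 1) := by
  unfold pairProj
  congr 1
  omega

theorem pairProj_isHermitian (Q : ℕ) : (pairProj Q).IsHermitian :=
  hwProj_isHermitian _ _ _

theorem pairProj_mul_self {Q : ℕ} (hQ : 1 ≤ Q) : pairProj Q * pairProj Q = pairProj Q := by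
  rw [pairProj_eq hQ]
  exact hwProj_mul_self (pair_isLadder hQ)

theorem pairProj_comm_z {Q : ℕ} (hQ : 1 ≤ Q) : pairLz Q * pairProj Q = pairProj Q * pairLz Q := by
  rw [pairProj_eq hQ]
  exact hwProj_comm_z (pair_isLadder hQ)

theorem pairProj_comm_m {Q : ℕ} (hQ : 1 ≤ Q) : pairLm Q * pairProj Q = pairProj Q * pairLm Q := by
  rw [pairProj_eq hQ]
  exact hwProj_comm_m (pair_isLadder hQ)

theorem pairProj_comm_p {Q : ℕ} (hQ : 1 ≤ Q) : pairLp Q * pairProj Q = pairProj Q * pairLp Q := by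
  rw [pairProj_eq hQ]
  exact hwProj_comm_p (pair_isLadder hQ)

theorem pairProj_casimir {Q : ℕ} (hQ : 1 ≤ Q) :
    pairCasimir Q * pairProj Q = (((Q : ℂ) - 1) * (Q : ℂ)) • pairProj Q := by
  rw [pairProj_eq hQ]
  have h := hwProj_casimir (pair_isLadder hQ)
  unfold pairCasimir
  rw [h]
  congr 1
  have : ((2 * Q - 2 : ℕ) : ℂ) = 2 * (Q : ℂ) - 2 := by
    rw [Nat.cast_sub (by omega)]; push_cast; ring
  rw [this]; ring

theorem pairProj_trace {Q : ℕ} (hQ : 1 ≤ Q) : Matrix.trace (pairProj Q) = 2 * (Q : ℂ) - 1 := by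
  rw [pairProj_eq hQ, hwProj_trace (pair_isLadder hQ)]
  have : ((2 * Q - 2 : ℕ) : ℂ) = 2 * (Q : ℂ) - 2 := by
    rw [Nat.cast_sub (by omega)]; push_cast; ring
  rw [this]; ring

/-- Weight conservation: `P^{(1)}` only connects pair configurations of equal total weight. -/
theorem pairProj_weight {Q : ℕ} (hQ : 1 ≤ Q) {σ τ : Pair Q} (h : pairProj Q σ τ ≠ 0) :
    (σ 0 : ℕ) + (σ 1 : ℕ) = (τ 0 : ℕ) + (τ 1 : ℕ) := by
  have hc := pairProj_comm_z hQ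
  rw [pairLz_eq_diagonal] at hc
  have hc' := congrFun (congrFun hc σ) τ
  rw [Matrix.diagonal_mul, Matrix.mul_diagonal] at hc'
  by_contra hne
  apply h
  have h2 : ((Q : ℂ) - ((σ 0 : ℕ) : ℂ) - ((σ 1 : ℕ) : ℂ)) - ((Q : ℂ) - ((τ 0 : ℕ) : ℂ) - ((τ 1 : ℕ) : ℂ)) ≠ 0 := by
    intro h3
    apply hne
    have h4 : (((σ 0 : ℕ) + (σ 1 : ℕ) : ℕ) : ℂ) = (((τ 0 : ℕ) + (τ 1 : ℕ) : ℕ) : ℂ) := by
      push_cast; linear_combination -h3
    exact_mod_cast h4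
  have h5 : (((Q : ℂ) - ((σ 0 : ℕ) : ℂ) - ((σ 1 : ℕ) : ℂ)) - ((Q : ℂ) - ((τ 0 : ℕ) : ℂ) - ((τ 1 : ℕ) : ℂ))) * pairProj Q σ τ = 0 := by
    linear_combination hc'
  rcases mul_eq_zero.mp h5 with h6 | h6
  · exact absurd h6 h2
  · exact h6

end Vale.Agent.H96.FQH
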