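import Vale.Agent.H96.FQH.PairOpSite
import Vale.Agent.H96.FQH.SwapOp

/-!
# The double-commutator identity for one pair term of the Hamiltonian
-/

open Matrix

namespace Vale.Agent.H96.FQH

set_option linter.unusedSectionVars false

variable {N : ℕ} {α : Type*} [Fintype α] [DecidableEq α]

/-- The part of `dOp a b` acting on the factors other than `i`, `j`. -/
def restOp (i j : Fin N) (a b : α) : Matrix (Fin N → α) (Fin N → α) ℂ :=
  ∑ k : Fin N, if k ≠ i ∧ k ≠ j then siteOp k (Matrix.single a b (1 : ℂ)) else 0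

/-- Splitting `dOp a b` into its part on the factors `i`, `j` and the rest. -/
theorem dOp_split {i j : Fin N} (hij : i ≠ j) (a b : α) :
    (dOp a b : Matrix (Fin N → α) (Fin N → α) ℂ) =
      pairOp i j (dOp a b : Matrix (Fin 2 → α) (Fin 2 → α) ℂ) + restOp i j a b := by
  rw [pairOp_dOp hij]
  unfold dOp restOp
  rw [← Finset.add_sum_erase Finset.univ _ (Finset.mem_univ i)]
  rw [← Finset.add_sum_erase (Finset.univ.erase i) _
    (Finset.mem_erase.mpr ⟨hij.symm, Finset.mem_univ j⟩)]
  rw [← add_assoc]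
  congr 1
  rw [← Finset.sum_filter]
  apply Finset.sum_congr
  · ext k
    simp [and_comm]
  · intro k _
    rfl

/-- The rest part commutes with every pair operator on `i`, `j`. -/
theorem restOp_mul_pairOp_comm (i j : Fin N) (a b : α) (B : Matrix (Fin 2 → α) (Fin 2 → α) ℂ) :
    restOp i j a b * pairOp i j B = pairOp i j B * restOp i j a b := by
  unfold restOp
  rw [Finset.sum_mul, Finset.mul_sum]
  apply Finset.sum_congr rfl
  intro k _
  by_cases hk : k ≠ i ∧ k ≠ j
  · rw [if_pos hk]
    exact siteOp_mul_pairOp_comm hk.1 hk.2 _ _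
  · rw [if_neg hk, zero_mul, mul_zero]

/-- The commutator of a pair operator with `dOp a b` is the pair operator of the two-body
commutator. -/
theorem pairOp_comm_dOp {i j : Fin N} (hij : i ≠ j) (B : Matrix (Fin 2 → α) (Fin 2 → α) ℂ)
    (a b : α) :
    pairOp i j B * dOp a b - dOp a b * pairOp i j B =
      pairOp i j (B * dOp a b - dOp a b * B) := by
  rw [pairOp_sub, pairOp_mul hij, pairOp_mul hij, dOp_split hij a b, Matrix.mul_add,
    Matrix.add_mul, restOp_mul_pairOp_comm]
  abel

/-- Summing the products of matrix units on the factor `k` with those on `i`, `j` gives the two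
exchange operators. -/
theorem sum_siteOp_mul_pairOp_dOp {i j k : Fin N} (hij : i ≠ j) (hki : k ≠ i) (hkj : k ≠ j) :
    ∑ a : α, ∑ b : α, siteOp k (Matrix.single b a (1 : ℂ)) *
        pairOp i j (dOp a b : Matrix (Fin 2 → α) (Fin 2 → α) ℂ) =
      (swapOp k i + swapOp k j : Matrix (Fin N → α) (Fin N → α) ℂ) := by
  rw [swapOp_eq_sum hki, swapOp_eq_sum hkj, ← Finset.sum_add_distrib]
  apply Finset.sum_congr rfl
  intro a _
  rw [← Finset.sum_add_distrib]
  apply Finset.sum_congr rfl
  intro b _
  rw [pairOp_dOp hij, Matrix.mul_add]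

/-- Moving the innermost of three sums to the outside. -/
theorem sum3_comm {M : Type*} [AddCommMonoid M] (f : α → α → Fin N → M) :
    ∑ a : α, ∑ b : α, ∑ k : Fin N, f a b k = ∑ k : Fin N, ∑ a : α, ∑ b : α, f a b k := by
  calc ∑ a : α, ∑ b : α, ∑ k : Fin N, f a b k
      = ∑ a : α, ∑ k : Fin N, ∑ b : α, f a b k :=
        Finset.sum_congr rfl (fun a _ => Finset.sum_comm)
    _ = ∑ k : Fin N, ∑ a : α, ∑ b : α, f a b k := Finset.sum_comm

theorem sumrule_pair {i j : Fin N} (hij : i ≠ j) (B R : Matrix (Fin 2 → α) (Fin 2 → α) ℂ)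
    (hR : ∑ a : α, ∑ b : α,
      (dOp b a : Matrix (Fin 2 → α) (Fin 2 → α) ℂ) * (B * dOp a b - dOp a b * B) = R) :
    ∑ a : α, ∑ b : α, (dOp b a : Matrix (Fin N → α) (Fin N → α) ℂ) *
        (pairOp i j B * dOp a b - dOp a b * pairOp i j B) =
      pairOp i j R + ∑ k : Fin N, if k ≠ i ∧ k ≠ j then
        (pairOp i j B * (swapOp k i + swapOp k j) - (swapOp k i + swapOp k j) * pairOp i j B)
        else 0 := by
  -- the pair part
  have h1 : ∑ a : α, ∑ b : α, pairOp i j (dOp b a : Matrix (Fin 2 → α) (Fin 2 → α) ℂ) *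
      pairOp i j (B * dOp a b - dOp a b * B) = pairOp i j R := by
    rw [← hR, pairOp_sum]
    apply Finset.sum_congr rfl
    intro a _
    rw [pairOp_sum]
    apply Finset.sum_congr rfl
    intro b _
    rw [pairOp_mul hij]
  -- the rest part
  have h2 : ∑ a : α, ∑ b : α, restOp i j b a * pairOp i j (B * dOp a b - dOp a b * B) =
      ∑ k : Fin N, if k ≠ i ∧ k ≠ j then
        (pairOp i j B * (swapOp k i + swapOp k j) - (swapOp k i + swapOp k j) * pairOp i j B)
        else 0 := by
    have h3 : ∀ a b : α, restOp i j b a * pairOp i j (B * dOp a b - dOp a b * B) =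
        ∑ k : Fin N, if k ≠ i ∧ k ≠ j then
          (pairOp i j B * (siteOp k (Matrix.single b a (1 : ℂ)) *
              pairOp i j (dOp a b : Matrix (Fin 2 → α) (Fin 2 → α) ℂ)) -
            (siteOp k (Matrix.single b a (1 : ℂ)) *
              pairOp i j (dOp a b : Matrix (Fin 2 → α) (Fin 2 → α) ℂ)) * pairOp i j B)
          else 0 := by
      intro a b
      unfold restOp
      rw [Finset.sum_mul]
      apply Finset.sum_congr rfl
      intro k _
      by_cases hk : k ≠ i ∧ k ≠ j
      · rw [if_pos hk, if_pos hk, pairOp_sub, pairOp_mul hij, pairOp_mul hij, Matrix.mul_sub,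
          ← Matrix.mul_assoc, ← Matrix.mul_assoc, ← Matrix.mul_assoc,
          siteOp_mul_pairOp_comm hk.1 hk.2]
      · rw [if_neg hk, if_neg hk, zero_mul]
    simp only [h3]
    rw [sum3_comm]
    apply Finset.sum_congr rfl
    intro k _
    by_cases hk : k ≠ i ∧ k ≠ j
    · simp only [if_pos hk]
      rw [← sum_siteOp_mul_pairOp_dOp hij hk.1 hk.2, Finset.mul_sum, Finset.sum_mul,
        ← Finset.sum_sub_distrib]
      apply Finset.sum_congr rfl
      intro a _
      rw [Finset.mul_sum, Finset.sum_mul, ← Finset.sum_sub_distrib]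
    · simp only [if_neg hk, Finset.sum_const_zero]
  rw [← h1, ← h2, ← Finset.sum_add_distrib]
  apply Finset.sum_congr rfl
  intro a _
  rw [← Finset.sum_add_distrib]
  apply Finset.sum_congr rfl
  intro b _
  rw [pairOp_comm_dOp hij, ← Matrix.add_mul, ← dOp_split hij]

end Vale.Agent.H96.FQH
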